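import Vale.Agent.P088.R2.H960.DVb

/-!
# P088, row V-DV: the weak divergence of `s₂ - s₁` is small
-/

open MeasureTheory Set Filter Topology
open scoped ContDiff Matrix

noncomputable section

namespace Vale.Agent.P088.PJ.H960

open Vale.Agent.P088.LR Vale.Agent.P088.LR.U Vale.Agent.P088.LR.H158
open Vale.Agent.P088.HY (VV Bs Bn Un DB)

variable {n N : ℕ}

theorem cont_nq {P : MC n N} (hP : SmC P) : Continuous fun x => nq (P x) := by
  unfold nq
  exact continuous_finsetSum _ fun a _ => continuous_finsetSum _ fun b _ =>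
    ((hP a b).continuous.norm).pow 2

theorem int_bl {f : V n → ℝ} (h : ∀ x ∉ bl0 n, f x = 0) : ∫ x in bl0 n, f x = ∫ x, f x :=
  setIntegral_eq_integral_of_forall_compl_eq_zero h

theorem int_cs {F : Type*} [NormedAddCommGroup F] {f : V n → F} (hf : Continuous f)
    (h : ∀ x ∉ bl0 n, f x = 0) : Integrable f :=
  hf.integrable_of_hasCompactSupport (hcs h)

section

variable {k : ℕ} {δ : ℝ} {Ω : Set (V n)} {s₁ s₂ : MF n} {P₁ P₂ : MC n N}
  {G₁ G₂ Y D : Fin n → MC n N}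

theorem cont_Hn (h₁ : SmM s₁) (h₂ : SmM s₂) : Continuous (Hn s₁ s₂) := by
  unfold Hn
  exact (continuous_finsetSum _ fun i _ => continuous_finsetSum _ fun j _ =>
    ((h₂ i j).continuous.sub (h₁ i j).continuous).pow 2).sqrt

theorem cont_Dn (hD : ∀ a, SmC (D a)) : Continuous (Dn D) := by
  unfold Dn
  exact (continuous_finsetSum _ fun a _ => continuous_finsetSum _ fun i _ =>
    cont_nq (smC_pdm (hD a) i)).sqrt

theorem cont_Wn {v : Fin n → V n → ℝ} (hv : ∀ a, ContDiff ℝ ∞ (v a)) : Continuous (Wn v) := by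
  unfold Wn
  exact (continuous_finsetSum _ fun i _ => ((hv i).continuous.pow 2).add
    (continuous_finsetSum _ fun j _ => ((cdp (hv i) j).continuous.pow 2))).sqrt

theorem cont_fr {P : MC n N} (hP : SmC P) : Continuous fun x => fr (P x) :=
  (cont_nq hP).sqrt

theorem hs_eq (R : RP k δ Ω s₁ s₂ P₁ P₂ G₁ G₂ Y D) :
    ∫ x in bl0 n, Hn s₁ s₂ x ^ 2 = hs s₁ s₂ := by
  simp only [Hn_sq]
  refine int_bl fun x hx => ?_
  simp [R.os x fun h => hx (R.sub h)]

theorem n2_eq (R : RP k δ Ω s₁ s₂ P₁ P₂ G₁ G₂ Y D) :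
    ∫ x in bl0 n, fr (P₂ x - P₁ x) ^ 2 = n2 fun x => P₂ x - P₁ x := by
  simp only [fr_sq]
  refine int_bl fun x hx => ?_
  simp [R.oP x fun h => hx (R.sub h), nq_zero]

theorem nD_eq (R : RP k δ Ω s₁ s₂ P₁ P₂ G₁ G₂ Y D) :
    ∫ x in bl0 n, Dn D x ^ 2 = nD D := by
  have h0 : ∀ a i, ∀ x ∉ bl0 n, nq (pdm i (D a) x) = 0 := fun a i x hx => by
    rw [dD_off R a i x fun h => hx (R.sub h), nq_zero]
  have hi : ∀ a i, Integrable fun x => nq (pdm i (D a) x) := fun a i =>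
    int_cs (cont_nq (smC_pdm (R.sD a) i)) (h0 a i)
  simp only [Dn_sq]
  rw [int_bl fun x hx => Finset.sum_eq_zero fun a _ => Finset.sum_eq_zero fun i _ => h0 a i x hx,
    integral_finsetSum _ fun a _ => integrable_finsetSum _ fun i _ => hi a i]
  refine Finset.sum_congr rfl fun a _ => ?_
  rw [integral_finsetSum _ fun i _ => hi a i]
  rfl

theorem cs_bl {f g : V n → ℝ} (hf : Continuous f) (hg : Continuous g) :
    ∫ x in bl0 n, f x * g x ≤ √(∫ x in bl0 n, f x ^ 2) * √(∫ x in bl0 n, g x ^ 2) :=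
  cs_int (int_bl0 (hf.pow 2)) (int_bl0 (hg.pow 2)) (int_bl0 (hf.mul hg))

/-- The bound of the error terms. -/
theorem err (R : RP k δ Ω s₁ s₂ P₁ P₂ G₁ G₂ Y D) (h0 : 0 ≤ δ) {v : Fin n → V n → ℝ}
    (hv : ∀ a, ContDiff ℝ ∞ (v a)) :
    ∫ x in bl0 n, (δ * Hn s₁ s₂ x + fr (P₂ x - P₁ x) + δ * Dn D x) * Wn v x ≤
      (δ * √(hs s₁ s₂) + √(n2 fun x => P₂ x - P₁ x) + δ * √(nD D)) *
        √(∫ x in bl0 n, Wn v x ^ 2) := by
  have cH : Continuous (Hn s₁ s₂) := cont_Hn R.d₁.ss R.d₂.ss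
  have cM : Continuous fun x => fr (P₂ x - P₁ x) := cont_fr (smC_sub R.d₂.sP R.d₁.sP)
  have cD : Continuous (Dn D) := cont_Dn R.sD
  have cW : Continuous (Wn v) := cont_Wn hv
  have e1 := cs_bl cH cW
  have e2 := cs_bl cM cW
  have e3 := cs_bl cD cW
  rw [hs_eq R] at e1
  rw [n2_eq R] at e2
  rw [nD_eq R] at e3
  have e4 : ∀ x, (δ * Hn s₁ s₂ x + fr (P₂ x - P₁ x) + δ * Dn D x) * Wn v x =
      δ * (Hn s₁ s₂ x * Wn v x) + fr (P₂ x - P₁ x) * Wn v x + δ * (Dn D x * Wn v x) := by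
    intro x
    ring
  simp only [e4]
  have i1 : IntegrableOn (fun x => δ * (Hn s₁ s₂ x * Wn v x)) (bl0 n) :=
    int_bl0 ((cH.mul cW).const_mul δ)
  have i2 : IntegrableOn (fun x => fr (P₂ x - P₁ x) * Wn v x) (bl0 n) := int_bl0 (cM.mul cW)
  have i3 : IntegrableOn (fun x => δ * (Dn D x * Wn v x)) (bl0 n) :=
    int_bl0 ((cD.mul cW).const_mul δ)
  have i12 : IntegrableOn (fun x => δ * (Hn s₁ s₂ x * Wn v x) + fr (P₂ x - P₁ x) * Wn v x)
    (bl0 n) := Integrable.add i1 i2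
  rw [integral_add i12 i3, integral_add i1 i2, integral_const_mul, integral_const_mul]
  have e5 := mul_le_mul_of_nonneg_left e1 h0
  have e6 := mul_le_mul_of_nonneg_left e3 h0
  linarith

/-- The identity for the divergence. -/
theorem ident (R : RP (k + 2) δ Ω s₁ s₂ P₁ P₂ G₁ G₂ Y D) (h0 : 0 ≤ δ) (hδ : δ ≤ 1)
    {v : Fin n → V n → ℝ} (hv : ∀ a, ContDiff ℝ ∞ (v a)) :
    |N * (∫ x, ∑ i, ∑ j, (s₂ x i j - s₁ x i j) * pd j (v i) x) -
      (∫ x, ∑ i, (Qt s₁ s₂ G₁ G₂ i x * ff Y v i x).trace).re| ≤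
      7 * (n + 1) ^ 3 * (N + 1) ^ 2 *
        ∫ x in bl0 n, (δ * Hn s₁ s₂ x + fr (P₂ x - P₁ x) + δ * Dn D x) * Wn v x := by
  set A : V n → ℝ := fun x => ∑ i, ∑ j, (s₂ x i j - s₁ x i j) * pd j (v i) x with hA
  set C : V n → ℂ := fun x => ∑ i, (Qt s₁ s₂ G₁ G₂ i x * ff Y v i x).trace with hC
  set F : V n → ℝ := fun x => ∑ a, ∑ i, pd i (v a) x * rt (Fl s₁ s₂ P₁ P₂ Y D a i x) with hF
  set G : V n → ℝ := fun x => ∑ a, v a x * rt (Rr s₁ s₂ G₁ G₂ Y D a x) with hG
  have hw : ∫ x, F x = ∫ x, G x := weak R hv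
  have z : ∀ x ∉ bl0 n, x ∉ Ω := fun x hx h => hx (R.sub h)
  have hA0 : ∀ x ∉ bl0 n, A x = 0 := fun x hx => by simp [hA, R.os x (z x hx)]
  have hC0 : ∀ x ∉ bl0 n, C x = 0 := fun x hx => by simp [hC, Qt_off R _ x (z x hx)]
  have hF0 : ∀ x ∉ bl0 n, F x = 0 := fun x hx => by
    simp [hF, Fl_off R _ _ x (z x hx), rt_zero]
  have hG0 : ∀ x ∉ bl0 n, G x = 0 := fun x hx => by
    simp [hG, Rr_off R _ x (z x hx), rt_zero]
  have cA : Continuous A := continuous_finsetSum _ fun i _ => continuous_finsetSum _ fun j _ =>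
    ((R.d₂.ss i j).continuous.sub (R.d₁.ss i j).continuous).mul (cdp (hv i) j).continuous
  have cC : Continuous C := continuous_finsetSum _ fun i _ =>
    (cd_trace (SmC_mul (smC_Qt R i) (smC_ff R.sY hv i))).continuous
  have cF : Continuous F := continuous_finsetSum _ fun a _ => continuous_finsetSum _ fun i _ =>
    (cdp (hv a) i).continuous.mul (cd_rt (smC_Fl R a i)).continuous
  have cG : Continuous G := continuous_finsetSum _ fun a _ =>
    (hv a).continuous.mul (cd_rt (smC_Rr R a)).continuous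
  have iA := int_cs cA hA0
  have iC := int_cs cC hC0
  have iF := int_cs cF hF0
  have iG := int_cs cG hG0
  have iCr : Integrable fun x => (C x).re := iC.re
  have hre : (∫ x, C x).re = ∫ x, (C x).re := (integral_re iC).symm
  -- the error function
  set E : V n → ℝ := fun x => (G x - (C x).re) - (F x - N * A x) with hE
  have hid : N * (∫ x, A x) - (∫ x, C x).re = ∫ x, E x := by
    have j1 : Integrable fun x => G x - (C x).re := iG.sub iCr
    have j2 : Integrable fun x => F x - N * A x := iF.sub (iA.const_mul _)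
    have j3 : Integrable fun x => (N : ℝ) * A x := iA.const_mul _
    simp only [hE]
    rw [integral_sub j1 j2, integral_sub iG iCr, integral_sub iF j3, integral_const_mul, hre, hw]
    ring
  rw [hid]
  have hE0 : ∀ x ∉ bl0 n, E x = 0 := fun x hx => by
    simp [hE, hA0 x hx, hC0 x hx, hF0 x hx, hG0 x hx]
  have cE : Continuous E := (cG.sub (Complex.continuous_re.comp cC)).sub
    (cF.sub (cA.const_mul _))
  -- the pointwise bound
  have hb : ∀ x, |E x| ≤ 7 * (n + 1) ^ 3 * (N + 1) ^ 2 *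
      ((δ * Hn s₁ s₂ x + fr (P₂ x - P₁ x) + δ * Dn D x) * Wn v x) := by
    intro x
    have hH := Hn_nonneg (s₁ := s₁) (s₂ := s₂) x
    have hD := Dn_nonneg (D := D) x
    have hM := fr_nonneg (P₂ x - P₁ x)
    have hW := Wn_nonneg v x
    have e1 : F x - N * A x = ∑ a, ∑ i, pd i (v a) x * E1 s₁ s₂ P₁ P₂ Y D a i x := by
      simp only [hF, hA, rt_Fl R, Finset.mul_sum, ← Finset.sum_sub_distrib]
      refine Finset.sum_congr rfl fun a _ => Finset.sum_congr rfl fun i _ => ?_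
      rw [(R.d₂.sy x).apply a i, (R.d₁.sy x).apply a i]
      ring
    have e2 : G x - (C x).re = ∑ a, v a x * ∑ i, rt (kp s₂ G₂ i x * pdm i (D a) x) := by
      have e3 : (C x).re = ∑ a, v a x * ∑ i, rt (Qt s₁ s₂ G₁ G₂ i x * yd Y a i x) := by
        simp only [hC, Complex.re_sum, Finset.mul_sum]
        rw [Finset.sum_comm]
        refine Finset.sum_congr rfl fun i _ => ?_
        change rt (Qt s₁ s₂ G₁ G₂ i x * ff Y v i x) = _
        unfold ff
        rw [Finset.mul_sum, rt_sum]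
        refine Finset.sum_congr rfl fun a _ => ?_
        rw [Matrix.mul_smul, rt_smul]
      rw [e3]
      simp only [hG, rt_Rr R, mul_add, Finset.sum_add_distrib]
      ring
    set S := δ * Hn s₁ s₂ x + fr (P₂ x - P₁ x) + δ * Dn D x with hS
    have hS0 : 0 ≤ S := by positivity
    have hn : (0 : ℝ) ≤ n := Nat.cast_nonneg _
    have hN : (0 : ℝ) ≤ N := Nat.cast_nonneg _
    have b1 : |F x - N * A x| ≤ n * (n * (Wn v x * (5 * (n + 1) * (N + 1) ^ 2 * S))) := by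
      rw [e1]
      refine (Finset.abs_sum_le_sum_abs _ _).trans ?_
      calc _ ≤ ∑ _a : Fin n, n * (Wn v x * (5 * (n + 1) * (N + 1) ^ 2 * S)) := by
            refine Finset.sum_le_sum fun a _ => (Finset.abs_sum_le_sum_abs _ _).trans ?_
            calc _ ≤ ∑ _i : Fin n, (Wn v x * (5 * (n + 1) * (N + 1) ^ 2 * S)) := by
                  refine Finset.sum_le_sum fun i _ => ?_
                  rw [abs_mul]
                  exact mul_le_mul (dv_le v a i x) (E1_le (k := k + 1) R h0 hδ a i x)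
                    (abs_nonneg _) hW
              _ = _ := by simp
        _ = _ := by simp
    have b2 : |G x - (C x).re| ≤ n * (Wn v x * (n * (2 * n * N * S))) := by
      rw [e2]
      refine (Finset.abs_sum_le_sum_abs _ _).trans ?_
      calc _ ≤ ∑ _a : Fin n, (Wn v x * (n * (2 * n * N * S))) := by
            refine Finset.sum_le_sum fun a _ => ?_
            rw [abs_mul]
            refine mul_le_mul (v_le v a x) ?_ (abs_nonneg _) hW
            refine (Finset.abs_sum_le_sum_abs _ _).trans ?_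
            calc _ ≤ ∑ _i : Fin n, 2 * n * N * S := by
                  refine Finset.sum_le_sum fun i _ => (abs_rt_mul_le _ _).trans ?_
                  calc _ ≤ 2 * n * N * δ * Dn D x :=
                        mul_le_mul (kp_le R.d₂ h0 hδ i x) (dD_le a i x) (fr_nonneg _)
                          (by positivity)
                    _ = 2 * n * N * (δ * Dn D x) := by ring
                    _ ≤ 2 * n * N * S := by
                        refine mul_le_mul_of_nonneg_left ?_ (by positivity)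
                        rw [hS]
                        exact le_add_of_nonneg_left (by positivity)
              _ = _ := by simp
        _ = _ := by simp
    have b3 : |E x| ≤ |G x - (C x).re| + |F x - N * A x| := by
      simp only [hE]
      exact abs_sub _ _
    have hWS : 0 ≤ S * Wn v x := mul_nonneg hS0 hW
    have b4 : (5 * n ^ 2 * (n + 1) * (N + 1) ^ 2 + 2 * n ^ 3 * N : ℝ) ≤
        7 * (n + 1) ^ 3 * (N + 1) ^ 2 := by
      have q1 : (n : ℝ) ^ 2 ≤ (n + 1) ^ 2 := by nlinarith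
      have q2 : (n : ℝ) ^ 3 ≤ (n + 1) ^ 3 := by nlinarith [mul_nonneg hn hn]
      have q3 : (N : ℝ) ≤ (N + 1) ^ 2 := by nlinarith
      calc (5 * n ^ 2 * (n + 1) * (N + 1) ^ 2 + 2 * n ^ 3 * N : ℝ) ≤
          5 * (n + 1) ^ 2 * (n + 1) * (N + 1) ^ 2 + 2 * (n + 1) ^ 3 * (N + 1) ^ 2 := by gcongr
        _ = _ := by ring
    calc |E x| ≤ _ := b3
      _ ≤ _ := add_le_add b2 b1
      _ = (5 * n ^ 2 * (n + 1) * (N + 1) ^ 2 + 2 * n ^ 3 * N) * (S * Wn v x) := by ring
      _ ≤ _ := mul_le_mul_of_nonneg_right b4 hWS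
  rw [← int_bl hE0, ← integral_const_mul]
  refine (abs_integral_le_integral_abs).trans ?_
  refine integral_mono_ae ?_ ?_ (Filter.Eventually.of_forall hb)
  · exact int_bl0 cE.abs
  · have cH : Continuous (Hn s₁ s₂) := cont_Hn R.d₁.ss R.d₂.ss
    have cM : Continuous fun x => fr (P₂ x - P₁ x) := cont_fr (smC_sub R.d₂.sP R.d₁.sP)
    have cD : Continuous (Dn D) := cont_Dn R.sD
    have cW : Continuous (Wn v) := cont_Wn hv
    exact int_bl0 (((((cH.const_mul δ).add cM).add (cD.const_mul δ)).mul cW).const_mul _)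

end

end H960

open Vale.Agent.P088.LR Vale.Agent.P088.LR.U Vale.Agent.P088.LR.H158 H960

/-- **Row V-DV.** -/
theorem rowDV : RowQW → RowME → RowDV := by
  intro hQ hM n N hn hN
  obtain ⟨kQ, CQ, δQ, hCQ, hδQ, HQ⟩ := hQ n N hn
  obtain ⟨kM, CM, δM, hCM, hδM, HM⟩ := hM n N hn
  set Cf : ℝ := 4 * (n + 1) ^ 4 * N ^ 2 with hCf
  set c₂ : ℝ := 7 * (n + 1) ^ 3 * (N + 1) ^ 2 with hc₂
  have hCf0 : 0 ≤ Cf := by positivity
  have hc₂0 : 0 < c₂ := by positivity
  set K : ℝ := √(CQ * (1 + CM) * Cf) + c₂ * (2 + √CM) with hK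
  have hK0 : 0 < K := by positivity
  refine ⟨max 2 (max kQ kM), K ^ 2, min 1 (min δQ δM), by positivity, by positivity, ?_⟩
  intro δ h0 hδ Ω s₁ s₂ P₁ P₂ G₁ G₂ Y D R v hv
  have hδ1 : δ ≤ 1 := hδ.trans (min_le_left _ _)
  have hδQ' : δ ≤ δQ := hδ.trans ((min_le_right _ _).trans (min_le_left _ _))
  have hδM' : δ ≤ δM := hδ.trans ((min_le_right _ _).trans (min_le_right _ _))
  have R2 : RP (0 + 2) δ Ω s₁ s₂ P₁ P₂ G₁ G₂ Y D := RP_mono R (le_max_left _ _) le_rfl
  have RQ : RP kQ δQ Ω s₁ s₂ P₁ P₂ G₁ G₂ Y D :=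
    RP_mono R ((le_max_left _ _).trans (le_max_right _ _)) hδQ'
  have RM : RP kM δ Ω s₁ s₂ P₁ P₂ G₁ G₂ Y D :=
    RP_mono R ((le_max_right _ _).trans (le_max_right _ _)) le_rfl
  set T : ℝ := ∫ x in bl0 n, Wn v x ^ 2 with hT
  have hT' : ∫ x in bl0 n, ∑ i, (v i x ^ 2 + ∑ j, pd j (v i) x ^ 2) = T := by
    rw [hT]
    simp only [Wn_sq]
  rw [hT']
  have hT0 : 0 ≤ T := integral_nonneg fun x => sq_nonneg _
  have hhs : 0 ≤ hs s₁ s₂ := by
    unfold hs
    exact integral_nonneg fun x => Finset.sum_nonneg fun _ _ =>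
      Finset.sum_nonneg fun _ _ => sq_nonneg _
  have hn2 : ∀ P : MC n N, 0 ≤ n2 P := fun P => integral_nonneg fun x => nq_nonneg _
  have hnD : 0 ≤ nD D := Finset.sum_nonneg fun _ _ => Finset.sum_nonneg fun _ _ => hn2 _
  set S := hs s₁ s₂ + nD D with hS
  have hS0 : 0 ≤ S := add_nonneg hhs hnD
  -- the bound of `P₂ - P₁`
  have m1 : n2 (fun x => P₂ x - P₁ x) ≤ CM * δ ^ 2 * S := by
    refine le_trans ?_ (HM δ h0 hδM' Ω s₁ s₂ P₁ P₂ G₁ G₂ Y D RM)
    exact le_add_of_nonneg_right (Finset.sum_nonneg fun i _ => hn2 _)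
  have m2 : √(n2 fun x => P₂ x - P₁ x) ≤ √CM * δ * √S := by
    refine Real.sqrt_le_iff.2 ⟨by positivity, ?_⟩
    rw [mul_pow, mul_pow, Real.sq_sqrt hCM.le, Real.sq_sqrt hS0]
    exact m1
  -- the first term
  set X := ∫ x, ∑ i, (Qt s₁ s₂ G₁ G₂ i x * ff Y v i x).trace with hX
  have q1 : ‖X‖ ^ 2 ≤ CQ * (hs s₁ s₂ + n2 (fun x => P₂ x - P₁ x) + nD D) *
      ∫ x in bl0 n, ∑ i, (nq (ff Y v i x) + ∑ j, nq (pdm j (ff Y v i) x)) :=
    HQ Ω s₁ s₂ P₁ P₂ G₁ G₂ Y D RQ (ff Y v) fun i => smC_ff R.sY hv i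
  have q2 : ∫ x in bl0 n, ∑ i, (nq (ff Y v i x) + ∑ j, nq (pdm j (ff Y v i) x)) ≤
      Cf * δ ^ 2 * T := by
    rw [hT, ← integral_const_mul]
    refine integral_mono_ae ?_ ?_ (Filter.Eventually.of_forall fun x => ?_)
    · refine int_bl0 (continuous_finsetSum _ fun i _ => ?_)
      exact (cont_nq (smC_ff R.sY hv i)).add (continuous_finsetSum _ fun j _ =>
        cont_nq (smC_pdm (smC_ff R.sY hv i) j))
    · exact int_bl0 (((cont_Wn hv).pow 2).const_mul _)
    · exact nqff_le R2 h0 hv x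
  have q3 : CQ * (hs s₁ s₂ + n2 (fun x => P₂ x - P₁ x) + nD D) ≤ CQ * ((1 + CM) * S) := by
    refine mul_le_mul_of_nonneg_left ?_ hCQ.le
    have : CM * δ ^ 2 * S ≤ CM * S := by
      have h1 : δ ^ 2 ≤ 1 := pow_le_one₀ h0 hδ1
      have h2 : CM * δ ^ 2 ≤ CM * 1 := mul_le_mul_of_nonneg_left h1 hCM.le
      have h3 := mul_le_mul_of_nonneg_right h2 hS0
      linarith
    linarith
  have q4 : ‖X‖ ^ 2 ≤ CQ * (1 + CM) * Cf * (δ ^ 2 * S * T) := by
    refine q1.trans ((mul_le_mul q3 q2 ?_ (by positivity)).trans (le_of_eq (by ring)))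
    exact integral_nonneg fun x => Finset.sum_nonneg fun i _ => add_nonneg (nq_nonneg _)
      (Finset.sum_nonneg fun j _ => nq_nonneg _)
  have q5 : ‖X‖ ≤ √(CQ * (1 + CM) * Cf) * (δ * √S * √T) := by
    refine abs_le_of_sq_le_sq' ?_ (by positivity) |>.2
    rw [mul_pow, mul_pow, mul_pow, Real.sq_sqrt (by positivity), Real.sq_sqrt hS0,
      Real.sq_sqrt hT0]
    exact q4
  -- the second term
  have e1 := ident R2 h0 hδ1 hv
  have e2 := err R2 h0 hv
  have e3 : (δ * √(hs s₁ s₂) + √(n2 fun x => P₂ x - P₁ x) + δ * √(nD D)) ≤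
      (2 + √CM) * (δ * √S) := by
    have h1 : √(hs s₁ s₂) ≤ √S := Real.sqrt_le_sqrt (by linarith)
    have h2 : √(nD D) ≤ √S := Real.sqrt_le_sqrt (by linarith)
    have h3 := mul_le_mul_of_nonneg_left h1 h0
    have h4 := mul_le_mul_of_nonneg_left h2 h0
    linarith
  have e4 := mul_le_mul_of_nonneg_left
    (e2.trans (mul_le_mul_of_nonneg_right e3 (Real.sqrt_nonneg T))) hc₂0.le
  set I := ∫ x, ∑ i, ∑ j, (s₂ x i j - s₁ x i j) * pd j (v i) x with hI
  have e5 : |(N : ℝ) * I| ≤ K * (δ * √S * √T) := by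
    have h1 : |(N : ℝ) * I| ≤ |N * I - X.re| + |X.re| := by
      have := abs_add_le ((N : ℝ) * I - X.re) X.re
      rwa [sub_add_cancel] at this
    have h2 : |X.re| ≤ ‖X‖ := Complex.abs_re_le_norm X
    calc |(N : ℝ) * I| ≤ _ := h1
      _ ≤ c₂ * ((2 + √CM) * (δ * √S) * √T) + √(CQ * (1 + CM) * Cf) * (δ * √S * √T) :=
          add_le_add (e1.trans e4) (h2.trans q5)
      _ = _ := by rw [hK]; ring
  have e6 : |I| ≤ |(N : ℝ) * I| := by
    rw [abs_mul, abs_of_nonneg (Nat.cast_nonneg N : (0 : ℝ) ≤ N)]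
    refine le_mul_of_one_le_left (abs_nonneg _) ?_
    exact_mod_cast hN
  calc I ^ 2 = |I| ^ 2 := (sq_abs I).symm
    _ ≤ (K * (δ * √S * √T)) ^ 2 := pow_le_pow_left₀ (abs_nonneg _) (e6.trans e5) 2
    _ = K ^ 2 * δ ^ 2 * S * T := by
        rw [mul_pow, mul_pow, mul_pow, Real.sq_sqrt hS0, Real.sq_sqrt hT0]
        ring

end Vale.Agent.P088.PJ
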