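import Vale.Agent.P088.R2.H960.Kit

/-!
# P088, row V-DV: the gauge identity in weak form
-/

open MeasureTheory Set Filter Topology
open scoped ContDiff Matrix

noncomputable section

namespace Vale.Agent.P088.PJ.H960

open Vale.Agent.P088.LR Vale.Agent.P088.LR.U Vale.Agent.P088.LR.H158
open Vale.Agent.P088.HY (VV Bs Bn Un DB)

variable {n N : ℕ}

/-! ### Smooth matrix functions -/

theorem smC_add {P Q : MC n N} (hP : SmC P) (hQ : SmC Q) : SmC fun x => P x + Q x :=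
  fun a b => (hP a b).add (hQ a b)

theorem smC_sub {P Q : MC n N} (hP : SmC P) (hQ : SmC Q) : SmC fun x => P x - Q x :=
  fun a b => (hP a b).sub (hQ a b)

theorem smC_smul {c : V n → ℂ} {P : MC n N} (hc : ContDiff ℝ ∞ c) (hP : SmC P) :
    SmC fun x => c x • P x := fun a b => hc.mul (hP a b)

theorem smC_sum {ι : Type*} (s : Finset ι) {P : ι → MC n N} (hP : ∀ i, SmC (P i)) :
    SmC fun x => ∑ i ∈ s, P i x := by
  intro a b
  simp only [Matrix.sum_apply]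
  exact ContDiff.sum fun i _ => hP i a b

theorem smC_pdm {P : MC n N} (hP : SmC P) (i : Fin n) : SmC (pdm i P) := fun a b =>
  cdp (hP a b) i

theorem cdR {f : V n → ℝ} (hf : ContDiff ℝ ∞ f) : ContDiff ℝ ∞ fun x => (f x : ℂ) :=
  Complex.ofRealCLM.contDiff.comp hf

theorem pdm_add {P Q : MC n N} (hP : SmC P) (hQ : SmC Q) (i : Fin n) (x : V n) :
    pdm i (fun x => P x + Q x) x = pdm i P x + pdm i Q x := by
  ext a b
  exact pd_add (dfa (hP a b) x) (dfa (hQ a b) x) i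

theorem pdm_sub {P Q : MC n N} (hP : SmC P) (hQ : SmC Q) (i : Fin n) (x : V n) :
    pdm i (fun x => P x - Q x) x = pdm i P x - pdm i Q x := by
  ext a b
  exact pd_sub (dfa (hP a b) x) (dfa (hQ a b) x) i

theorem pdm_sum {ι : Type*} (s : Finset ι) {P : ι → MC n N} (hP : ∀ i, SmC (P i)) (i : Fin n)
    (x : V n) : pdm i (fun x => ∑ j ∈ s, P j x) x = ∑ j ∈ s, pdm i (P j) x := by
  ext a b
  simp only [pdm, Matrix.of_apply, Matrix.sum_apply]
  exact pd_sum (fun j _ => dfa (hP j a b) x) i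

theorem pdm_smul {c : V n → ℂ} {P : MC n N} (hc : ContDiff ℝ ∞ c) (hP : SmC P) (i : Fin n)
    (x : V n) : pdm i (fun x => c x • P x) x = pd i c x • P x + c x • pdm i P x := by
  ext a b
  exact pd_mul (dfa hc x) (dfa (hP a b) x) i

/-- The real part of the trace. -/
def rt (A : Matrix (Fin N) (Fin N) ℂ) : ℝ := A.trace.re

theorem rt_add (A B : Matrix (Fin N) (Fin N) ℂ) : rt (A + B) = rt A + rt B := by
  simp [rt, Matrix.trace_add]

theorem rt_sub (A B : Matrix (Fin N) (Fin N) ℂ) : rt (A - B) = rt A - rt B := by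
  simp [rt, Matrix.trace_sub]

theorem rt_zero : rt (0 : Matrix (Fin N) (Fin N) ℂ) = 0 := by simp [rt]

theorem rt_sum {ι : Type*} (s : Finset ι) (A : ι → Matrix (Fin N) (Fin N) ℂ) :
    rt (∑ i ∈ s, A i) = ∑ i ∈ s, rt (A i) := by
  simp [rt, Matrix.trace_sum, Complex.re_sum]

theorem rt_smul (c : ℝ) (A : Matrix (Fin N) (Fin N) ℂ) : rt ((c : ℂ) • A) = c * rt A := by
  simp [rt, Matrix.trace_smul]

theorem rt_one : rt (1 : Matrix (Fin N) (Fin N) ℂ) = N := by simp [rt]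

theorem rt_skew {A : Matrix (Fin N) (Fin N) ℂ} (h : Aᴴ = -A) : rt A = 0 := by
  have h1 : Aᴴ.trace = star A.trace := Matrix.trace_conjTranspose A
  rw [h, Matrix.trace_neg] at h1
  have h2 := congrArg Complex.re h1
  simp only [Complex.neg_re, Complex.star_def, Complex.conj_re] at h2
  unfold rt
  linarith

theorem abs_rt_le (A : Matrix (Fin N) (Fin N) ℂ) : |rt A| ≤ N * fr A :=
  (Complex.abs_re_le_norm _).trans (trace_le A)

theorem abs_rt_mul_le (A B : Matrix (Fin N) (Fin N) ℂ) : |rt (A * B)| ≤ fr A * fr B :=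
  (Complex.abs_re_le_norm _).trans (trace_mul_le A B)

theorem cd_trace {P : MC n N} (hP : SmC P) : ContDiff ℝ ∞ fun x => (P x).trace := by
  unfold Matrix.trace
  exact ContDiff.sum fun i _ => hP i i

theorem cd_rt {P : MC n N} (hP : SmC P) : ContDiff ℝ ∞ fun x => rt (P x) :=
  Complex.reCLM.contDiff.comp (cd_trace hP)

theorem pd_rt {P : MC n N} (hP : SmC P) (i : Fin n) (x : V n) :
    pd i (fun x => rt (P x)) x = rt (pdm i P x) := by
  have h1 : pd i (fun x => rt (P x)) x = Complex.reCLM (pd i (fun x => (P x).trace) x) :=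
    pd_clm Complex.reCLM (dfa (cd_trace hP) x) i
  rw [h1]
  have h2 : pd i (fun x => (P x).trace) x = (pdm i P x).trace := by
    unfold Matrix.trace
    exact pd_sum (fun j _ => dfa (hP j j) x) i
  rw [h2]
  rfl

theorem pd_coord (i a : Fin n) (x : V n) :
    pd i (fun x : V n => (x a : ℂ)) x = if i = a then 1 else 0 := by
  have h : HasFDerivAt (fun x : V n => (x a : ℂ))
      (Complex.ofRealCLM.comp (ContinuousLinearMap.proj (R := ℝ) (φ := fun _ : Fin n => ℝ) a)) x :=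
    (Complex.ofRealCLM.comp
      (ContinuousLinearMap.proj (R := ℝ) (φ := fun _ : Fin n => ℝ) a)).hasFDerivAt
  unfold pd
  rw [h.fderiv]
  by_cases hia : i = a
  · subst hia
    simp
  · simp [hia, Ne.symm hia]

theorem cd_coord (a : Fin n) : ContDiff ℝ ∞ (fun x : V n => (x a : ℂ)) :=
  cdR (contDiff_apply ℝ ℝ a)

theorem smC_const (A : Matrix (Fin N) (Fin N) ℂ) : SmC fun _ : V n => A := fun _ _ =>
  contDiff_const

/-! ### The reduced data -/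

/-- `∂_i (Y_a - x_a)`. -/
def yd (Y : Fin n → MC n N) (a i : Fin n) : MC n N := pdm i (fun x => Y a x - (x a : ℂ) • 1)

theorem smC_yd {Y : Fin n → MC n N} (hY : ∀ a, SmC (Y a)) (a i : Fin n) : SmC (yd Y a i) :=
  smC_pdm (smC_sub (hY a) (smC_smul (cd_coord a) (smC_const 1))) i

theorem pdm_Y {Y : Fin n → MC n N} (hY : ∀ a, SmC (Y a)) (a i : Fin n) (x : V n) :
    pdm i (Y a) x = (if i = a then 1 else 0) + yd Y a i x := by
  unfold yd
  rw [pdm_sub (hY a) (smC_smul (cd_coord a) (smC_const 1)),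
    pdm_smul (cd_coord a) (smC_const 1), pdm_const, pd_coord]
  split_ifs <;> simp

section

variable {k : ℕ} {δ : ℝ} {Ω : Set (V n)} {s₁ s₂ : MF n} {P₁ P₂ : MC n N}
  {G₁ G₂ Y D : Fin n → MC n N}

theorem smC_TP {s : MF n} (hs : SmM s) {P : MC n N} (hP : SmC P) (i j : Fin n) :
    SmC (TP s P i j) := smC_smul (cdR (hs i j)) hP

theorem smC_kp {s : MF n} (hs : SmM s) {G : Fin n → MC n N} (hG : ∀ i, SmC (G i)) (i : Fin n) :
    SmC (kp s G i) := smC_sum _ fun j => smC_smul (cdR (hs i j)) (hG j)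

theorem smC_Zt (R : RP k δ Ω s₁ s₂ P₁ P₂ G₁ G₂ Y D) (i j : Fin n) :
    SmC (Zt s₁ s₂ P₁ P₂ i j) := smC_sub (smC_TP R.d₂.ss R.d₂.sP i j) (smC_TP R.d₁.ss R.d₁.sP i j)

theorem smC_Qt (R : RP k δ Ω s₁ s₂ P₁ P₂ G₁ G₂ Y D) (i : Fin n) :
    SmC (Qt s₁ s₂ G₁ G₂ i) := smC_sub (smC_kp R.d₂.ss R.d₂.sG i) (smC_kp R.d₁.ss R.d₁.sG i)

/-- The flux. -/
def Fl (s₁ s₂ : MF n) (P₁ P₂ : MC n N) (Y D : Fin n → MC n N) (a i : Fin n) : MC n N := fun x =>
  ∑ j, (Zt s₁ s₂ P₁ P₂ i j x * pdm j (Y a) x + TP s₂ P₂ i j x * pdm j (D a) x)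

/-- The lower order part. -/
def Rr (s₁ s₂ : MF n) (G₁ G₂ : Fin n → MC n N) (Y D : Fin n → MC n N) (a : Fin n) : MC n N :=
  fun x => ∑ i, (Qt s₁ s₂ G₁ G₂ i x * pdm i (Y a) x + kp s₂ G₂ i x * pdm i (D a) x)

theorem smC_Fl (R : RP k δ Ω s₁ s₂ P₁ P₂ G₁ G₂ Y D) (a i : Fin n) :
    SmC (Fl s₁ s₂ P₁ P₂ Y D a i) :=
  smC_sum _ fun j => smC_add (SmC_mul (smC_Zt R i j) (smC_pdm (R.sY a) j))
    (SmC_mul (smC_TP R.d₂.ss R.d₂.sP i j) (smC_pdm (R.sD a) j))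

theorem smC_Rr (R : RP k δ Ω s₁ s₂ P₁ P₂ G₁ G₂ Y D) (a : Fin n) :
    SmC (Rr s₁ s₂ G₁ G₂ Y D a) :=
  smC_sum _ fun i => smC_add (SmC_mul (smC_Qt R i) (smC_pdm (R.sY a) i))
    (SmC_mul (smC_kp R.d₂.ss R.d₂.sG i) (smC_pdm (R.sD a) i))

theorem Zt_off (R : RP k δ Ω s₁ s₂ P₁ P₂ G₁ G₂ Y D) (i j : Fin n) :
    ∀ x ∉ Ω, Zt s₁ s₂ P₁ P₂ i j x = 0 := by
  intro x hx
  simp [Zt, TP, R.os x hx, R.oP x hx]

theorem Qt_off (R : RP k δ Ω s₁ s₂ P₁ P₂ G₁ G₂ Y D) (i : Fin n) :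
    ∀ x ∉ Ω, Qt s₁ s₂ G₁ G₂ i x = 0 := by
  intro x hx
  simp [Qt, kp, R.os x hx, R.oG _ x hx]

theorem dD_off (R : RP k δ Ω s₁ s₂ P₁ P₂ G₁ G₂ Y D) (a i : Fin n) :
    ∀ x ∉ Ω, pdm i (D a) x = 0 := pdm_off R.reg (R.sD a) (R.oD a) i

theorem Fl_off (R : RP k δ Ω s₁ s₂ P₁ P₂ G₁ G₂ Y D) (a i : Fin n) :
    ∀ x ∉ Ω, Fl s₁ s₂ P₁ P₂ Y D a i x = 0 := by
  intro x hx
  simp [Fl, Zt_off R _ _ x hx, dD_off R _ _ x hx]

theorem Rr_off (R : RP k δ Ω s₁ s₂ P₁ P₂ G₁ G₂ Y D) (a : Fin n) :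
    ∀ x ∉ Ω, Rr s₁ s₂ G₁ G₂ Y D a x = 0 := by
  intro x hx
  simp [Rr, Qt_off R _ x hx, dD_off R _ _ x hx]

theorem bl0_sub {x : V n} (hx : x ∈ bl0 n) : x ∈ Bs n 2 := by
  have h : HY.sq x ≤ 1 / 4 := hx
  show HY.sq x < 2 ^ 2
  linarith

/-- **The gauge identity.** -/
theorem gauge (R : RP k δ Ω s₁ s₂ P₁ P₂ G₁ G₂ Y D) (a : Fin n) (x : V n) :
    ∑ i, pdm i (Fl s₁ s₂ P₁ P₂ Y D a i) x + Rr s₁ s₂ G₁ G₂ Y D a x = 0 := by
  by_cases hx : x ∈ Ω
  · have h1 := R.gi a x hx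
    have h2 := R.hY a x (bl0_sub (R.sub hx))
    have hYD : SmC fun x => Y a x + D a x := smC_add (R.sY a) (R.sD a)
    have e1 : ∀ i, SmC fun y => ∑ j, TP s₂ P₂ i j y * pdm j (fun x => Y a x + D a x) y := fun i =>
      smC_sum _ fun j => SmC_mul (smC_TP R.d₂.ss R.d₂.sP i j) (smC_pdm hYD j)
    have e2 : ∀ i, SmC fun y => ∑ j, TP s₁ P₁ i j y * pdm j (Y a) y := fun i =>
      smC_sum _ fun j => SmC_mul (smC_TP R.d₁.ss R.d₁.sP i j) (smC_pdm (R.sY a) j)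
    have e3 : ∀ i, Fl s₁ s₂ P₁ P₂ Y D a i = fun y =>
        (∑ j, TP s₂ P₂ i j y * pdm j (fun x => Y a x + D a x) y) -
          ∑ j, TP s₁ P₁ i j y * pdm j (Y a) y := by
      intro i
      funext y
      rw [Fl, ← Finset.sum_sub_distrib]
      refine Finset.sum_congr rfl fun j _ => ?_
      rw [pdm_add (R.sY a) (R.sD a)]
      simp only [Zt]
      noncomm_ring
    have e4 : Rr s₁ s₂ G₁ G₂ Y D a x =
        (∑ i, kp s₂ G₂ i x * pdm i (fun x => Y a x + D a x) x) -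
          ∑ i, kp s₁ G₁ i x * pdm i (Y a) x := by
      rw [Rr, ← Finset.sum_sub_distrib]
      refine Finset.sum_congr rfl fun j _ => ?_
      rw [pdm_add (R.sY a) (R.sD a)]
      simp only [Qt]
      noncomm_ring
    have e5 : ∑ i, pdm i (Fl s₁ s₂ P₁ P₂ Y D a i) x =
        (∑ i, pdm i (fun y => ∑ j, TP s₂ P₂ i j y * pdm j (fun x => Y a x + D a x) y) x) -
          ∑ i, pdm i (fun y => ∑ j, TP s₁ P₁ i j y * pdm j (Y a) y) x := by
      rw [← Finset.sum_sub_distrib]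
      refine Finset.sum_congr rfl fun i _ => ?_
      rw [e3, pdm_sub (e1 i) (e2 i)]
    rw [e4, e5]
    simp only [MoC] at h1 h2
    have h3 := congrArg₂ (fun a b => a - b) h1 h2
    simp only [sub_zero] at h3
    rw [← h3]
    abel
  · rw [Rr_off R a x hx, add_zero]
    exact Finset.sum_eq_zero fun i _ => pdm_off R.reg (smC_Fl R a i) (Fl_off R a i) i x hx

/-- The weak form of the gauge identity. -/
theorem weak (R : RP k δ Ω s₁ s₂ P₁ P₂ G₁ G₂ Y D) {v : Fin n → V n → ℝ}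
    (hv : ∀ a, ContDiff ℝ ∞ (v a)) :
    ∫ x, ∑ a, ∑ i, pd i (v a) x * rt (Fl s₁ s₂ P₁ P₂ Y D a i x) =
      ∫ x, ∑ a, v a x * rt (Rr s₁ s₂ G₁ G₂ Y D a x) := by
  have hF : ∀ a i, ContDiff ℝ ∞ fun x => rt (Fl s₁ s₂ P₁ P₂ Y D a i x) := fun a i =>
    cd_rt (smC_Fl R a i)
  have hR : ∀ a, ContDiff ℝ ∞ fun x => rt (Rr s₁ s₂ G₁ G₂ Y D a x) := fun a =>
    cd_rt (smC_Rr R a)
  have hF0 : ∀ a i, ∀ x ∉ bl0 n, rt (Fl s₁ s₂ P₁ P₂ Y D a i x) = 0 := fun a i x hx => by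
    rw [Fl_off R a i x fun h => hx (R.sub h), rt_zero]
  have hR0 : ∀ a, ∀ x ∉ bl0 n, rt (Rr s₁ s₂ G₁ G₂ Y D a x) = 0 := fun a x hx => by
    rw [Rr_off R a x fun h => hx (R.sub h), rt_zero]
  have i1 : ∀ a i, Integrable fun x => pd i (v a) x * rt (Fl s₁ s₂ P₁ P₂ Y D a i x) := fun a i =>
    ((cdp (hv a) i).continuous.mul (hF a i).continuous).integrable_of_hasCompactSupport
      (hcs fun x hx => by simp only [Pi.mul_apply]; rw [hF0 a i x hx, mul_zero])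
  have i2 : ∀ a, Integrable fun x => v a x * rt (Rr s₁ s₂ G₁ G₂ Y D a x) := fun a =>
    ((hv a).continuous.mul (hR a).continuous).integrable_of_hasCompactSupport
      (hcs fun x hx => by simp only [Pi.mul_apply]; rw [hR0 a x hx, mul_zero])
  have i3 : ∀ a i, Integrable fun x => v a x * pd i (fun x => rt (Fl s₁ s₂ P₁ P₂ Y D a i x)) x :=
    fun a i => ((hv a).continuous.mul (cdp (hF a i) i).continuous).integrable_of_hasCompactSupport
      (hcs fun x hx => by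
        simp only [Pi.mul_apply]
        rw [pd_off R.reg (hF a i) (fun y hy => by rw [Fl_off R a i y hy, rt_zero]) i x
          fun h => hx (R.sub h), mul_zero])
  rw [integral_finsetSum _ fun a _ => integrable_finsetSum _ fun i _ => i1 a i,
    integral_finsetSum _ fun a _ => i2 a]
  refine Finset.sum_congr rfl fun a _ => ?_
  rw [integral_finsetSum _ fun i _ => i1 a i]
  have e1 : ∀ i, ∫ x, pd i (v a) x * rt (Fl s₁ s₂ P₁ P₂ Y D a i x) =
      -∫ x, v a x * pd i (fun x => rt (Fl s₁ s₂ P₁ P₂ Y D a i x)) x := fun i => by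
    rw [ibp (hv a) (hF a i) (hF0 a i) i, neg_neg]
  simp only [e1, Finset.sum_neg_distrib]
  rw [← integral_finsetSum _ fun i _ => i3 a i, ← integral_neg]
  congr 1
  funext x
  have h := gauge R a x
  have h2 := congrArg rt h
  rw [rt_add, rt_sum, rt_zero] at h2
  simp only [pd_rt (smC_Fl R a _), ← Finset.mul_sum]
  have h3 : ∑ i, rt (pdm i (Fl s₁ s₂ P₁ P₂ Y D a i) x) = -rt (Rr s₁ s₂ G₁ G₂ Y D a x) := by
    linarith
  rw [h3]
  ring

end

end Vale.Agent.P088.PJ.H960
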