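import Vale.Agent.P088.R2.H960.DVa

/-!
# P088, row V-DV: pointwise bounds
-/

open MeasureTheory Set Filter Topology
open scoped ContDiff Matrix

noncomputable section

namespace Vale.Agent.P088.PJ.H960

open Vale.Agent.P088.LR Vale.Agent.P088.LR.U Vale.Agent.P088.LR.H158
open Vale.Agent.P088.HY (VV Bs Bn Un DB)

variable {n N : ℕ}

theorem clC_mono {k l : ℕ} {δ ε : ℝ} {P : MC n N} (h : ClC k δ P) (hl : l ≤ k) (hε : δ ≤ ε) :
    ClC l ε P := fun a b => cl_mono (h a b) hl hε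

theorem Dt_mono {k l : ℕ} {δ ε : ℝ} {Ω : Set (V n)} {s : MF n} {P : MC n N} {G : Fin n → MC n N}
    (R : Dt k δ Ω s P G) (hl : l ≤ k) (hε : δ ≤ ε) : Dt l ε Ω s P G :=
  { R with
    cs := fun i j => cl_mono (R.cs i j) hl hε
    cP := clC_mono R.cP hl hε
    cG := fun i => clC_mono (R.cG i) hl hε }

section

variable {k : ℕ} {δ : ℝ} {Ω : Set (V n)} {s₁ s₂ : MF n} {P₁ P₂ : MC n N}
  {G₁ G₂ Y D : Fin n → MC n N}

theorem RP_mono {l : ℕ} {ε : ℝ} (R : RP k δ Ω s₁ s₂ P₁ P₂ G₁ G₂ Y D) (hl : l ≤ k)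
    (hε : δ ≤ ε) : RP l ε Ω s₁ s₂ P₁ P₂ G₁ G₂ Y D :=
  { R with
    d₁ := Dt_mono R.d₁ hl hε
    d₂ := Dt_mono R.d₂ hl hε
    cY := fun a => clC_mono (R.cY a) hl hε
    cD := fun a => clC_mono (R.cD a) hl hε }

theorem clC_pdm {P : MC n N} (hP : SmC P) (h : ClC (k + 1) δ P) (i : Fin n) :
    ClC k δ (pdm i P) := fun a b => cl_pd (hP a b) (h a b) i

theorem clC_fr {P : MC n N} (hδ : 0 ≤ δ) (h : ClC k δ P) (x : V n) : fr (P x) ≤ N * δ :=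
  fr_le hδ fun a b => cl_norm (h a b) x

theorem fr_one : fr (1 : Matrix (Fin N) (Fin N) ℂ) ≤ N := by
  refine (fr_le zero_le_one fun a b => ?_).trans (by rw [mul_one])
  rw [Matrix.one_apply]
  split_ifs <;> simp

/-! ### The quantities -/

/-- `|s₂ - s₁|`. -/
def Hn (s₁ s₂ : MF n) (x : V n) : ℝ := √(∑ i, ∑ j, (s₂ x i j - s₁ x i j) ^ 2)

/-- `|∇ D|`. -/
def Dn (D : Fin n → MC n N) (x : V n) : ℝ := √(∑ a, ∑ i, nq (pdm i (D a) x))

/-- `(|v|² + |∇ v|²)^(1/2)`. -/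
def Wn (v : Fin n → V n → ℝ) (x : V n) : ℝ := √(∑ i, (v i x ^ 2 + ∑ j, pd j (v i) x ^ 2))

theorem Hn_nonneg (x : V n) : 0 ≤ Hn s₁ s₂ x := Real.sqrt_nonneg _

theorem Dn_nonneg (x : V n) : 0 ≤ Dn D x := Real.sqrt_nonneg _

theorem Wn_nonneg (v : Fin n → V n → ℝ) (x : V n) : 0 ≤ Wn v x := Real.sqrt_nonneg _

theorem Hn_sq (x : V n) : Hn s₁ s₂ x ^ 2 = ∑ i, ∑ j, (s₂ x i j - s₁ x i j) ^ 2 :=
  Real.sq_sqrt (Finset.sum_nonneg fun _ _ => Finset.sum_nonneg fun _ _ => sq_nonneg _)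

theorem Dn_sq (x : V n) : Dn D x ^ 2 = ∑ a, ∑ i, nq (pdm i (D a) x) :=
  Real.sq_sqrt (Finset.sum_nonneg fun _ _ => Finset.sum_nonneg fun _ _ => nq_nonneg _)

theorem Wn_sq (v : Fin n → V n → ℝ) (x : V n) :
    Wn v x ^ 2 = ∑ i, (v i x ^ 2 + ∑ j, pd j (v i) x ^ 2) :=
  Real.sq_sqrt (Finset.sum_nonneg fun _ _ => add_nonneg (sq_nonneg _)
    (Finset.sum_nonneg fun _ _ => sq_nonneg _))

theorem h_le (i j : Fin n) (x : V n) : |s₂ x i j - s₁ x i j| ≤ Hn s₁ s₂ x := by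
  refine abs_le_of_sq_le_sq ?_ (Hn_nonneg x)
  rw [Hn_sq]
  refine le_trans ?_ (Finset.single_le_sum (f := fun i => ∑ j, (s₂ x i j - s₁ x i j) ^ 2)
    (fun a _ => Finset.sum_nonneg fun _ _ => sq_nonneg _) (Finset.mem_univ i))
  exact Finset.single_le_sum (f := fun j => (s₂ x i j - s₁ x i j) ^ 2) (fun _ _ => sq_nonneg _)
    (Finset.mem_univ j)

theorem dD_le (a i : Fin n) (x : V n) : fr (pdm i (D a) x) ≤ Dn D x := by
  refine Real.sqrt_le_sqrt ?_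
  refine le_trans ?_ (Finset.single_le_sum (f := fun a => ∑ i, nq (pdm i (D a) x))
    (fun a _ => Finset.sum_nonneg fun _ _ => nq_nonneg _) (Finset.mem_univ a))
  exact Finset.single_le_sum (f := fun i => nq (pdm i (D a) x)) (fun _ _ => nq_nonneg _)
    (Finset.mem_univ i)

theorem v_le (v : Fin n → V n → ℝ) (a : Fin n) (x : V n) : |v a x| ≤ Wn v x := by
  refine abs_le_of_sq_le_sq ?_ (Wn_nonneg v x)
  rw [Wn_sq]
  refine le_trans ?_ (Finset.single_le_sum (f := fun i => v i x ^ 2 + ∑ j, pd j (v i) x ^ 2)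
    (fun a _ => add_nonneg (sq_nonneg _) (Finset.sum_nonneg fun _ _ => sq_nonneg _))
    (Finset.mem_univ a))
  exact le_add_of_nonneg_right (Finset.sum_nonneg fun _ _ => sq_nonneg _)

theorem dv_le (v : Fin n → V n → ℝ) (a i : Fin n) (x : V n) : |pd i (v a) x| ≤ Wn v x := by
  refine abs_le_of_sq_le_sq ?_ (Wn_nonneg v x)
  rw [Wn_sq]
  refine le_trans ?_ (Finset.single_le_sum (f := fun i => v i x ^ 2 + ∑ j, pd j (v i) x ^ 2)
    (fun a _ => add_nonneg (sq_nonneg _) (Finset.sum_nonneg fun _ _ => sq_nonneg _))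
    (Finset.mem_univ a))
  refine le_trans ?_ (le_add_of_nonneg_left (sq_nonneg _))
  exact Finset.single_le_sum (f := fun j => pd j (v a) x ^ 2) (fun _ _ => sq_nonneg _)
    (Finset.mem_univ i)

/-! ### Bounds -/

theorem s_le {s : MF n} {P : MC n N} {G : Fin n → MC n N} (R : Dt k δ Ω s P G) (hδ : δ ≤ 1)
    (i j : Fin n) (x : V n) : |s x i j| ≤ 2 := by
  have h := cl_norm (R.cs i j) x
  rw [Real.norm_eq_abs] at h
  have h1 : |(1 : Matrix (Fin n) (Fin n) ℝ) i j| ≤ 1 := by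
    rw [Matrix.one_apply]
    split_ifs <;> simp
  calc |s x i j| = |(s x i j - (1 : Matrix (Fin n) (Fin n) ℝ) i j) +
        (1 : Matrix (Fin n) (Fin n) ℝ) i j| := by rw [sub_add_cancel]
    _ ≤ _ := abs_add_le _ _
    _ ≤ 2 := by linarith

theorem P1_le {s : MF n} {P : MC n N} {G : Fin n → MC n N} (R : Dt k δ Ω s P G) (h0 : 0 ≤ δ)
    (x : V n) : fr (P x - 1) ≤ N * δ := clC_fr h0 R.cP x

theorem P_le {s : MF n} {P : MC n N} {G : Fin n → MC n N} (R : Dt k δ Ω s P G) (h0 : 0 ≤ δ)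
    (hδ : δ ≤ 1) (x : V n) : fr (P x) ≤ 2 * N := by
  have h1 := P1_le R h0 x
  have h2 := fr_add (P x - 1) (1 : Matrix (Fin N) (Fin N) ℂ)
  rw [sub_add_cancel] at h2
  have h3 : (N : ℝ) * δ ≤ N := mul_le_of_le_one_right (Nat.cast_nonneg _) hδ
  have h4 := fr_one (N := N)
  linarith

theorem fr_ofReal_smul (c : ℝ) (A : Matrix (Fin N) (Fin N) ℂ) :
    fr ((c : ℂ) • A) = |c| * fr A := by
  rw [fr_smul, Complex.norm_real, Real.norm_eq_abs]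

theorem TP1_le {s : MF n} {P : MC n N} {G : Fin n → MC n N} (R : Dt k δ Ω s P G) (h0 : 0 ≤ δ)
    (hδ : δ ≤ 1) (i j : Fin n) (x : V n) :
    fr (TP s P i j x - if i = j then 1 else 0) ≤ 3 * N * δ := by
  have e : (TP s P i j x - if i = j then 1 else 0) =
      ((s x i j - (1 : Matrix (Fin n) (Fin n) ℝ) i j : ℝ) : ℂ) • P x +
        (((1 : Matrix (Fin n) (Fin n) ℝ) i j : ℝ) : ℂ) • (P x - 1) := by
    unfold TP
    rw [Matrix.one_apply]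
    split_ifs with h
    · push_cast
      module
    · push_cast
      module
  rw [e]
  refine (fr_add _ _).trans ?_
  rw [fr_ofReal_smul, fr_ofReal_smul]
  have h1 := cl_norm (R.cs i j) x
  rw [Real.norm_eq_abs] at h1
  have h2 : |(1 : Matrix (Fin n) (Fin n) ℝ) i j| ≤ 1 := by
    rw [Matrix.one_apply]
    split_ifs <;> simp
  have h3 := P_le R h0 hδ x
  have h4 := P1_le R h0 x
  calc _ ≤ δ * (2 * N) + 1 * (N * δ) :=
        add_le_add (mul_le_mul h1 h3 (fr_nonneg _) h0) (mul_le_mul h2 h4 (fr_nonneg _) zero_le_one)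
    _ = 3 * N * δ := by ring

theorem kp_le {s : MF n} {P : MC n N} {G : Fin n → MC n N} (R : Dt k δ Ω s P G) (h0 : 0 ≤ δ)
    (hδ : δ ≤ 1) (i : Fin n) (x : V n) : fr (kp s G i x) ≤ 2 * n * N * δ := by
  unfold kp
  refine (fr_sum _ _).trans ?_
  calc ∑ j, fr ((s x i j : ℂ) • G j x) ≤ ∑ _j : Fin n, 2 * (N * δ) := by
        refine Finset.sum_le_sum fun j _ => ?_
        rw [fr_ofReal_smul]
        exact mul_le_mul (s_le R hδ i j x) (clC_fr h0 (R.cG j) x) (fr_nonneg _) (by norm_num)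
    _ = 2 * n * N * δ := by simp; ring

theorem yd_le (R : RP (k + 1) δ Ω s₁ s₂ P₁ P₂ G₁ G₂ Y D) (h0 : 0 ≤ δ) (a i : Fin n) (x : V n) :
    fr (yd Y a i x) ≤ N * δ :=
  clC_fr h0 (clC_pdm (smC_sub (R.sY a) (smC_smul (cd_coord a) (smC_const 1))) (R.cY a) i) x

theorem pyd_le (R : RP (k + 2) δ Ω s₁ s₂ P₁ P₂ G₁ G₂ Y D) (h0 : 0 ≤ δ) (a i j : Fin n)
    (x : V n) : fr (pdm j (yd Y a i) x) ≤ N * δ :=
  clC_fr h0 (clC_pdm (smC_yd R.sY a i)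
    (clC_pdm (smC_sub (R.sY a) (smC_smul (cd_coord a) (smC_const 1))) (R.cY a) i) j) x

theorem Zt_eq (i j : Fin n) (x : V n) : Zt s₁ s₂ P₁ P₂ i j x =
    ((s₂ x i j - s₁ x i j : ℝ) : ℂ) • P₂ x + ((s₁ x i j : ℝ) : ℂ) • (P₂ x - P₁ x) := by
  simp only [Zt, TP]
  push_cast
  module

theorem Zt_le (R : RP k δ Ω s₁ s₂ P₁ P₂ G₁ G₂ Y D) (h0 : 0 ≤ δ) (hδ : δ ≤ 1) (i j : Fin n)
    (x : V n) : fr (Zt s₁ s₂ P₁ P₂ i j x) ≤ 2 * N * Hn s₁ s₂ x + 2 * fr (P₂ x - P₁ x) := by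
  rw [Zt_eq]
  refine (fr_add _ _).trans ?_
  rw [fr_ofReal_smul, fr_ofReal_smul]
  have h1 : |s₂ x i j - s₁ x i j| * fr (P₂ x) ≤ Hn s₁ s₂ x * (2 * N) :=
    mul_le_mul (h_le i j x) (P_le R.d₂ h0 hδ x) (fr_nonneg _) (Hn_nonneg x)
  have h2 : |s₁ x i j| * fr (P₂ x - P₁ x) ≤ 2 * fr (P₂ x - P₁ x) :=
    mul_le_mul_of_nonneg_right (s_le R.d₁ hδ i j x) (fr_nonneg _)
  linarith

/-! ### The trace of the flux -/

/-- The error in the trace of the flux. -/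
def E1 (s₁ s₂ : MF n) (P₁ P₂ : MC n N) (Y D : Fin n → MC n N) (a i : Fin n) (x : V n) : ℝ :=
  (s₂ x i a - s₁ x i a) * rt (P₂ x - 1) + s₁ x i a * rt (P₂ x - P₁ x)
    + ∑ j, rt (Zt s₁ s₂ P₁ P₂ i j x * yd Y a j x)
    + ∑ j, rt ((TP s₂ P₂ i j x - if i = j then 1 else 0) * pdm j (D a) x)

theorem rt_dD (R : RP k δ Ω s₁ s₂ P₁ P₂ G₁ G₂ Y D) (a i : Fin n) (x : V n) :
    rt (pdm i (D a) x) = 0 := by
  rw [← pd_rt (R.sD a)]
  have h : (fun x => rt (D a x)) = fun _ => (0 : ℝ) := funext fun x => R.tD a x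
  rw [h]
  exact pd_const _ x i

theorem rt_Fl (R : RP k δ Ω s₁ s₂ P₁ P₂ G₁ G₂ Y D) (a i : Fin n) (x : V n) :
    rt (Fl s₁ s₂ P₁ P₂ Y D a i x) = N * (s₂ x i a - s₁ x i a) + E1 s₁ s₂ P₁ P₂ Y D a i x := by
  have e1 : Fl s₁ s₂ P₁ P₂ Y D a i x = Zt s₁ s₂ P₁ P₂ i a x +
      ∑ j, Zt s₁ s₂ P₁ P₂ i j x * yd Y a j x + (pdm i (D a) x +
      ∑ j, (TP s₂ P₂ i j x - if i = j then 1 else 0) * pdm j (D a) x) := by
    unfold Fl
    simp only [pdm_Y R.sY, mul_add, sub_mul, Finset.sum_add_distrib, Finset.sum_sub_distrib,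
      mul_ite, mul_one, mul_zero, ite_mul, one_mul, zero_mul, Finset.sum_ite_eq,
      Finset.sum_ite_eq', Finset.mem_univ, if_true]
    abel
  have e2 : rt (Zt s₁ s₂ P₁ P₂ i a x) = (s₂ x i a - s₁ x i a) * (rt (P₂ x - 1) + N) +
      s₁ x i a * rt (P₂ x - P₁ x) := by
    rw [Zt_eq, rt_add, rt_smul, rt_smul, rt_sub (P₂ x) 1, rt_one]
    ring
  rw [e1, rt_add, rt_add, rt_add, rt_dD R, e2, rt_sum, rt_sum]
  unfold E1
  ring

theorem E1_le (R : RP (k + 1) δ Ω s₁ s₂ P₁ P₂ G₁ G₂ Y D) (h0 : 0 ≤ δ) (hδ : δ ≤ 1)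
    (a i : Fin n) (x : V n) : |E1 s₁ s₂ P₁ P₂ Y D a i x| ≤
      5 * (n + 1) * (N + 1) ^ 2 * (δ * Hn s₁ s₂ x + fr (P₂ x - P₁ x) + δ * Dn D x) := by
  have hH := Hn_nonneg (s₁ := s₁) (s₂ := s₂) x
  have hD := Dn_nonneg (D := D) x
  have hM := fr_nonneg (P₂ x - P₁ x)
  set H := Hn s₁ s₂ x
  set M := fr (P₂ x - P₁ x)
  set E := Dn D x
  have hN : (0 : ℝ) ≤ N := Nat.cast_nonneg _
  have hn : (0 : ℝ) ≤ n := Nat.cast_nonneg _
  have t1 : |(s₂ x i a - s₁ x i a) * rt (P₂ x - 1)| ≤ H * (N * (N * δ)) := by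
    rw [abs_mul]
    refine mul_le_mul (h_le i a x) ?_ (abs_nonneg _) hH
    exact (abs_rt_le _).trans (mul_le_mul_of_nonneg_left (P1_le R.d₂ h0 x) hN)
  have t2 : |s₁ x i a * rt (P₂ x - P₁ x)| ≤ 2 * (N * M) := by
    rw [abs_mul]
    exact mul_le_mul (s_le R.d₁ hδ i a x) (abs_rt_le _) (abs_nonneg _) (by norm_num)
  have t3 : |∑ j, rt (Zt s₁ s₂ P₁ P₂ i j x * yd Y a j x)| ≤ n * ((2 * N * H + 2 * M) * (N * δ)) := by
    refine (Finset.abs_sum_le_sum_abs _ _).trans ?_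
    calc _ ≤ ∑ _j : Fin n, (2 * N * H + 2 * M) * (N * δ) := by
          refine Finset.sum_le_sum fun j _ => (abs_rt_mul_le _ _).trans ?_
          exact mul_le_mul (Zt_le R h0 hδ i j x) (yd_le R h0 a j x) (fr_nonneg _) (by positivity)
      _ = _ := by simp
  have t4 : |∑ j, rt ((TP s₂ P₂ i j x - if i = j then 1 else 0) * pdm j (D a) x)| ≤
      n * (3 * N * δ * E) := by
    refine (Finset.abs_sum_le_sum_abs _ _).trans ?_
    calc _ ≤ ∑ _j : Fin n, 3 * N * δ * E := by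
          refine Finset.sum_le_sum fun j _ => (abs_rt_mul_le _ _).trans ?_
          exact mul_le_mul (TP1_le R.d₂ h0 hδ i j x) (dD_le a j x) (fr_nonneg _) (by positivity)
      _ = _ := by simp
  have t5 : |E1 s₁ s₂ P₁ P₂ Y D a i x| ≤ H * (N * (N * δ)) + 2 * (N * M) +
      n * ((2 * N * H + 2 * M) * (N * δ)) + n * (3 * N * δ * E) := by
    unfold E1
    refine (abs_add_le _ _).trans (add_le_add ((abs_add_le _ _).trans (add_le_add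
      ((abs_add_le _ _).trans (add_le_add t1 t2)) t3)) t4)
  refine t5.trans ?_
  have hMδ : M * δ ≤ M := mul_le_of_le_one_right hM hδ
  have a1 : (n : ℝ) * ((2 * N * H + 2 * M) * (N * δ)) ≤ 2 * n * N ^ 2 * (δ * H) + 2 * n * N * M := by
    have : (n : ℝ) * ((2 * N * H + 2 * M) * (N * δ)) =
      2 * n * N ^ 2 * (δ * H) + 2 * n * N * (M * δ) := by ring
    rw [this]
    gcongr
  have hδH : 0 ≤ δ * H := by positivity
  have hδE : 0 ≤ δ * E := by positivity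
  have b1 : ((N : ℝ) ^ 2 + 2 * n * N ^ 2) ≤ 5 * (n + 1) * (N + 1) ^ 2 := by nlinarith [mul_nonneg hn hN, mul_nonneg hn (sq_nonneg (N : ℝ)), sq_nonneg (N : ℝ)]
  have b2 : (2 * N + 2 * n * N : ℝ) ≤ 5 * (n + 1) * (N + 1) ^ 2 := by nlinarith [mul_nonneg hn hN, mul_nonneg hn (sq_nonneg (N : ℝ)), sq_nonneg (N : ℝ)]
  have b3 : (3 * n * N : ℝ) ≤ 5 * (n + 1) * (N + 1) ^ 2 := by nlinarith [mul_nonneg hn hN, mul_nonneg hn (sq_nonneg (N : ℝ)), sq_nonneg (N : ℝ)]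
  have c1 := mul_le_mul_of_nonneg_right b1 hδH
  have c2 := mul_le_mul_of_nonneg_right b2 hM
  have c3 := mul_le_mul_of_nonneg_right b3 hδE
  linarith

/-! ### The lower order part -/

theorem kp_skew {s : MF n} {P : MC n N} {G : Fin n → MC n N} (R : Dt k δ Ω s P G) (i : Fin n)
    (x : V n) : (kp s G i x)ᴴ = -kp s G i x := by
  unfold kp
  rw [Matrix.conjTranspose_sum, ← Finset.sum_neg_distrib]
  refine Finset.sum_congr rfl fun j _ => ?_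
  rw [Matrix.conjTranspose_smul, R.hG]
  simp

theorem rt_Qt (R : RP k δ Ω s₁ s₂ P₁ P₂ G₁ G₂ Y D) (i : Fin n) (x : V n) :
    rt (Qt s₁ s₂ G₁ G₂ i x) = 0 := by
  unfold Qt
  rw [rt_sub, rt_skew (kp_skew R.d₂ i x), rt_skew (kp_skew R.d₁ i x), sub_zero]

theorem rt_Rr (R : RP k δ Ω s₁ s₂ P₁ P₂ G₁ G₂ Y D) (a : Fin n) (x : V n) :
    rt (Rr s₁ s₂ G₁ G₂ Y D a x) = ∑ i, rt (Qt s₁ s₂ G₁ G₂ i x * yd Y a i x) +
      ∑ i, rt (kp s₂ G₂ i x * pdm i (D a) x) := by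
  have e1 : Rr s₁ s₂ G₁ G₂ Y D a x = Qt s₁ s₂ G₁ G₂ a x +
      ∑ i, Qt s₁ s₂ G₁ G₂ i x * yd Y a i x + ∑ i, kp s₂ G₂ i x * pdm i (D a) x := by
    unfold Rr
    simp only [pdm_Y R.sY, mul_add, Finset.sum_add_distrib, mul_ite, mul_one, mul_zero,
      Finset.sum_ite_eq', Finset.mem_univ, if_true]
  rw [e1, rt_add, rt_add, rt_Qt R, rt_sum, rt_sum, zero_add]

/-- The test field for the weak bound of `q`. -/
def ff (Y : Fin n → MC n N) (v : Fin n → V n → ℝ) (i : Fin n) : MC n N := fun x =>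
  ∑ a, ((v a x : ℝ) : ℂ) • yd Y a i x

theorem smC_ff (hY : ∀ a, SmC (Y a)) {v : Fin n → V n → ℝ} (hv : ∀ a, ContDiff ℝ ∞ (v a))
    (i : Fin n) : SmC (ff Y v i) :=
  smC_sum _ fun a => smC_smul (cdR (hv a)) (smC_yd hY a i)

theorem pd_ofReal {f : V n → ℝ} (hf : ContDiff ℝ ∞ f) (i : Fin n) (x : V n) :
    pd i (fun x => (f x : ℂ)) x = ((pd i f x : ℝ) : ℂ) :=
  pd_clm Complex.ofRealCLM (dfa hf x) i

theorem pdm_ff (hY : ∀ a, SmC (Y a)) {v : Fin n → V n → ℝ} (hv : ∀ a, ContDiff ℝ ∞ (v a))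
    (i j : Fin n) (x : V n) : pdm j (ff Y v i) x =
      ∑ a, (((pd j (v a) x : ℝ) : ℂ) • yd Y a i x + ((v a x : ℝ) : ℂ) • pdm j (yd Y a i) x) := by
  unfold ff
  rw [pdm_sum _ fun a => smC_smul (cdR (hv a)) (smC_yd hY a i)]
  refine Finset.sum_congr rfl fun a _ => ?_
  rw [pdm_smul (cdR (hv a)) (smC_yd hY a i), pd_ofReal (hv a)]

theorem ff_le (R : RP (k + 2) δ Ω s₁ s₂ P₁ P₂ G₁ G₂ Y D) (h0 : 0 ≤ δ) (v : Fin n → V n → ℝ)
    (i : Fin n) (x : V n) : fr (ff Y v i x) ≤ n * N * δ * Wn v x := by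
  unfold ff
  refine (fr_sum _ _).trans ?_
  calc _ ≤ ∑ _a : Fin n, Wn v x * (N * δ) := by
        refine Finset.sum_le_sum fun a _ => ?_
        rw [fr_ofReal_smul]
        exact mul_le_mul (v_le v a x) (yd_le (k := k + 1) R h0 a i x) (fr_nonneg _)
          (Wn_nonneg v x)
    _ = _ := by simp; ring

theorem dff_le (R : RP (k + 2) δ Ω s₁ s₂ P₁ P₂ G₁ G₂ Y D) (h0 : 0 ≤ δ) {v : Fin n → V n → ℝ}
    (hv : ∀ a, ContDiff ℝ ∞ (v a)) (i j : Fin n) (x : V n) :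
    fr (pdm j (ff Y v i) x) ≤ 2 * n * N * δ * Wn v x := by
  rw [pdm_ff R.sY hv]
  refine (fr_sum _ _).trans ?_
  calc _ ≤ ∑ _a : Fin n, (Wn v x * (N * δ) + Wn v x * (N * δ)) := by
        refine Finset.sum_le_sum fun a _ => (fr_add _ _).trans ?_
        rw [fr_ofReal_smul, fr_ofReal_smul]
        exact add_le_add (mul_le_mul (dv_le v a j x) (yd_le (k := k + 1) R h0 a i x)
          (fr_nonneg _) (Wn_nonneg v x)) (mul_le_mul (v_le v a x) (pyd_le R h0 a i j x)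
          (fr_nonneg _) (Wn_nonneg v x))
    _ = _ := by simp; ring

theorem nqff_le (R : RP (k + 2) δ Ω s₁ s₂ P₁ P₂ G₁ G₂ Y D) (h0 : 0 ≤ δ) {v : Fin n → V n → ℝ}
    (hv : ∀ a, ContDiff ℝ ∞ (v a)) (x : V n) :
    ∑ i, (nq (ff Y v i x) + ∑ j, nq (pdm j (ff Y v i) x)) ≤
      4 * (n + 1) ^ 4 * N ^ 2 * δ ^ 2 * Wn v x ^ 2 := by
  have h1 : ∀ i, nq (ff Y v i x) ≤ (n * N * δ * Wn v x) ^ 2 := fun i => by
    rw [← fr_sq]
    exact pow_le_pow_left₀ (fr_nonneg _) (ff_le R h0 v i x) 2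
  have h2 : ∀ i j, nq (pdm j (ff Y v i) x) ≤ (2 * n * N * δ * Wn v x) ^ 2 := fun i j => by
    rw [← fr_sq]
    exact pow_le_pow_left₀ (fr_nonneg _) (dff_le R h0 hv i j x) 2
  calc _ ≤ ∑ _i : Fin n, ((n * N * δ * Wn v x) ^ 2 +
        ∑ _j : Fin n, (2 * n * N * δ * Wn v x) ^ 2) := by
        refine Finset.sum_le_sum fun i _ => add_le_add (h1 i) (Finset.sum_le_sum fun j _ => h2 i j)
    _ = (n ^ 3 + 4 * n ^ 4) * (N ^ 2 * δ ^ 2 * Wn v x ^ 2) := by simp; ring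
    _ ≤ (4 * (n + 1) ^ 4) * (N ^ 2 * δ ^ 2 * Wn v x ^ 2) := by
        refine mul_le_mul_of_nonneg_right ?_ (by positivity)
        have hn : (0 : ℝ) ≤ n := Nat.cast_nonneg _
        nlinarith [pow_nonneg hn 3, pow_nonneg hn 2, pow_nonneg hn 4]
    _ = _ := by ring

end

end Vale.Agent.P088.PJ.H960
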