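import Vale.Agent.P088.H198.Defs

/-!
# P088: local interpolation between the sup norm and derivatives of high order

The functions have values in an arbitrary normed space.
-/

open Set Filter Topology
open scoped ContDiff Nat

noncomputable section

namespace Vale.Agent.P088.HY.Ipl

variable {E : Type} [NormedAddCommGroup E] [NormedSpace ℝ E]

/-! ### Derivatives along lines -/

theorem line_deriv {F : Type} [NormedAddCommGroup F] [NormedSpace ℝ F] {f : E → F} {U : Set E}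
    (hU : IsOpen U) (hf : ContDiffOn ℝ ∞ f U) (x v : E) (k : ℕ) :
    ∀ t : ℝ, x + t • v ∈ U →
      iteratedDeriv k (fun t : ℝ => f (x + t • v)) t =
        iteratedFDeriv ℝ k f (x + t • v) fun _ => v := by
  have hl : ∀ t : ℝ, HasDerivAt (fun t : ℝ => x + t • v) v t := fun t => by
    simpa using ((hasDerivAt_id t).smul_const v).const_add x
  induction k with
  | zero => intro t _; simp
  | succ k ih =>
    intro t ht
    have hO : ∀ᶠ s in 𝓝 t, x + s • v ∈ U := (hl t).continuousAt.eventually (hU.mem_nhds ht)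
    have hev : iteratedDeriv k (fun t : ℝ => f (x + t • v)) =ᶠ[𝓝 t]
        fun t => iteratedFDeriv ℝ k f (x + t • v) fun _ => v := by
      filter_upwards [hO] with s hs
      exact ih s hs
    rw [iteratedDeriv_succ, hev.deriv_eq]
    have hd : DifferentiableAt ℝ (iteratedFDeriv ℝ k f) (x + t • v) := by
      have h1 : DifferentiableWithinAt ℝ (iteratedFDerivWithin ℝ k f U) U (x + t • v) :=
        hf.differentiableOn_iteratedFDerivWithin (by exact_mod_cast WithTop.coe_lt_top _)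
          hU.uniqueDiffOn _ ht
      refine (h1.differentiableAt (hU.mem_nhds ht)).congr_of_eventuallyEq ?_
      filter_upwards [hU.mem_nhds ht] with y hy
      exact (iteratedFDerivWithin_of_isOpen k hU hy).symm
    have h2 : HasDerivAt (fun t : ℝ => iteratedFDeriv ℝ k f (x + t • v) fun _ => v)
        ((fderiv ℝ (iteratedFDeriv ℝ k f) (x + t • v) v) fun _ => v) t := by
      have h3 := hd.hasFDerivAt.comp_hasDerivAt t (hl t)
      exact ((ContinuousMultilinearMap.apply ℝ (fun _ : Fin k => E) F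
        (fun _ => v)).hasFDerivAt.comp_hasDerivAt t h3)
    rw [h2.deriv, iteratedFDeriv_succ_apply_left]
    rfl

/-- Taylor's formula along a line. -/
theorem line_taylor {F : Type} [NormedAddCommGroup F] [NormedSpace ℝ F] {f : E → F} {x : E}
    {r : ℝ} (hf : ContDiffOn ℝ ∞ f (Metric.ball x r)) {m : ℕ} {B : ℝ}
    (hB : ∀ y ∈ Metric.ball x r, ‖iteratedFDeriv ℝ (m + 1) f y‖ ≤ B) {v : E} (hv : ‖v‖ ≤ 1)
    {b : ℝ} (hb : 0 < b) (hbr : b < r) :
    ‖f (x + b • v) - ∑ k ∈ Finset.range (m + 1),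
      ((k ! : ℝ)⁻¹ * b ^ k) • iteratedFDeriv ℝ k f x fun _ => v‖ ≤ B * b ^ (m + 1) := by
  have hin : ∀ t ∈ Icc 0 b, x + t • v ∈ Metric.ball x r := by
    intro t ht
    rw [Metric.mem_ball, dist_eq_norm, add_sub_cancel_left, norm_smul, Real.norm_of_nonneg ht.1]
    calc t * ‖v‖ ≤ t * 1 := mul_le_mul_of_nonneg_left hv ht.1
      _ < r := by rw [mul_one]; exact ht.2.trans_lt hbr
  have hB0 : 0 ≤ B := (norm_nonneg _).trans (hB x (Metric.mem_ball_self (hb.trans hbr)))
  have hl : ContDiff ℝ ∞ fun t : ℝ => x + t • v :=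
    contDiff_const.add (contDiff_id.smul contDiff_const)
  have hat : ∀ t ∈ Icc 0 b, ContDiffAt ℝ ∞ (fun t : ℝ => f (x + t • v)) t := fun t ht =>
    (hf.contDiffAt (Metric.isOpen_ball.mem_nhds (hin t ht))).comp t hl.contDiffAt
  have huniq : UniqueDiffOn ℝ (Icc 0 b) := uniqueDiffOn_Icc hb
  have heq : ∀ (k : ℕ), ∀ t ∈ Icc 0 b,
      iteratedDerivWithin k (fun t : ℝ => f (x + t • v)) (Icc 0 b) t =
        iteratedFDeriv ℝ k f (x + t • v) fun _ => v := by
    intro k t ht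
    rw [iteratedDerivWithin_eq_iteratedDeriv huniq ((hat t ht).of_le (by exact_mod_cast le_top))
      ht]
    exact line_deriv Metric.isOpen_ball hf x v k t (hin t ht)
  have hcd : ContDiffOn ℝ (m + 1) (fun t : ℝ => f (x + t • v)) (Icc 0 b) := fun t ht =>
    ((hat t ht).of_le (by exact_mod_cast le_top)).contDiffWithinAt
  have hC : ∀ y ∈ Icc 0 b,
      ‖iteratedDerivWithin (m + 1) (fun t : ℝ => f (x + t • v)) (Icc 0 b) y‖ ≤ B := by
    intro y hy
    rw [heq (m + 1) y hy]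
    refine (ContinuousMultilinearMap.le_opNorm _ _).trans ?_
    calc _ ≤ B * 1 := mul_le_mul (hB _ (hin y hy))
          (Finset.prod_le_one (fun _ _ => norm_nonneg _) fun _ _ => hv)
          (Finset.prod_nonneg fun _ _ => norm_nonneg _) hB0
      _ = B := mul_one B
  have h := taylor_mean_remainder_bound hb.le hcd (right_mem_Icc.2 hb.le) hC
  rw [taylor_within_apply] at h
  have e : ∑ k ∈ Finset.range (m + 1), ((k ! : ℝ)⁻¹ * (b - 0) ^ k) •
      iteratedDerivWithin k (fun t : ℝ => f (x + t • v)) (Icc 0 b) 0 =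
      ∑ k ∈ Finset.range (m + 1), ((k ! : ℝ)⁻¹ * b ^ k) • iteratedFDeriv ℝ k f x fun _ => v := by
    refine Finset.sum_congr rfl fun k _ => ?_
    rw [heq k 0 (left_mem_Icc.2 hb.le), sub_zero, zero_smul, add_zero]
  rw [e, sub_zero] at h
  refine h.trans ?_
  have h1 : (1 : ℝ) ≤ m ! := by exact_mod_cast Nat.one_le_iff_ne_zero.2 (Nat.factorial_ne_zero m)
  exact div_le_self (by positivity) h1

/-- The coefficients of a numerical derivative. -/
theorem coef (m : ℕ) (hm : 2 ≤ m) : ∃ (c s : Fin m → ℝ), (∀ i, 0 < s i ∧ s i < 1) ∧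
    ∀ k < m, ∑ i, c i * s i ^ k = if k = 1 then 1 else 0 := by
  set s : Fin m → ℝ := fun i => ((i : ℕ) + 1) / (m + 1) with hs
  have hm0 : (0 : ℝ) < m + 1 := by positivity
  have hinj : Function.Injective s := by
    intro i j hij
    simp only [hs] at hij
    rw [div_left_inj' hm0.ne'] at hij
    have : ((i : ℕ) : ℝ) = (j : ℕ) := by linarith
    exact Fin.ext (by exact_mod_cast this)
  have hdet : (Matrix.vandermonde s).det ≠ 0 := Matrix.det_vandermonde_ne_zero_iff.2 hinj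
  have hu : IsUnit (Matrix.vandermonde s).det := isUnit_iff_ne_zero.2 hdet
  refine ⟨Matrix.vecMul (Pi.single (⟨1, by omega⟩ : Fin m) 1) (Matrix.vandermonde s)⁻¹, s, ?_, ?_⟩
  · intro i
    have hi : ((i : ℕ) : ℝ) + 1 ≤ m := by exact_mod_cast i.2
    refine ⟨by simp only [hs]; positivity, ?_⟩
    simp only [hs]
    rw [div_lt_one hm0]
    linarith
  · intro k hk
    have h1 : Matrix.vecMul (Matrix.vecMul (Pi.single (⟨1, by omega⟩ : Fin m) (1 : ℝ))
        (Matrix.vandermonde s)⁻¹) (Matrix.vandermonde s) = Pi.single (⟨1, by omega⟩ : Fin m) 1 := by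
      rw [Matrix.vecMul_vecMul, Matrix.nonsing_inv_mul _ hu, Matrix.vecMul_one]
    have h2 := congrFun h1 ⟨k, hk⟩
    rw [Matrix.vecMul, dotProduct] at h2
    simp only [Matrix.vandermonde_apply] at h2
    rw [h2, Pi.single_apply]
    congr 1
    exact propext ⟨fun h => by simpa using h, fun h => by simpa using h⟩

/-- The bound of the first derivative. -/
theorem first (m : ℕ) : ∃ C : ℝ, 0 < C ∧ ∀ (F : Type) [NormedAddCommGroup F] [NormedSpace ℝ F]
    (f : E → F) (x : E) (r A B : ℝ), 0 < r → 0 ≤ A → 0 ≤ B →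
    ContDiffOn ℝ ∞ f (Metric.ball x r) →
    (∀ y ∈ Metric.ball x r, ‖f y‖ ≤ A ∧ ‖iteratedFDeriv ℝ (m + 1) f y‖ ≤ B) →
    ‖fderiv ℝ f x‖ ≤ C * (A / r + B * r ^ m) := by
  rcases Nat.eq_zero_or_pos m with rfl | hm
  · refine ⟨1, one_pos, ?_⟩
    intro F _ _ f x r A B hr hA hB hf h
    have h1 := (h x (Metric.mem_ball_self hr)).2
    rw [zero_add, norm_iteratedFDeriv_one] at h1
    have h2 : 0 ≤ A / r := by positivity
    rw [pow_zero]
    linarith
  · obtain ⟨c, s, hs, hc⟩ := coef (m + 1) (by omega)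
    refine ⟨∑ i, |c i| + 1, by positivity, ?_⟩
    intro F _ _ f x r A B hr hA hB hf h
    refine ContinuousLinearMap.opNorm_le_of_unit_norm (by positivity) fun v hv => ?_
    have hT : ∀ i, ‖f (x + (r * s i) • v) - ∑ k ∈ Finset.range (m + 1),
        ((k ! : ℝ)⁻¹ * (r * s i) ^ k) • iteratedFDeriv ℝ k f x fun _ => v‖ ≤ B * r ^ (m + 1) := by
      intro i
      have h1 : 0 < r * s i := mul_pos hr (hs i).1
      have h2 : r * s i < r := mul_lt_of_lt_one_right hr (hs i).2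
      refine (line_taylor hf (fun y hy => (h y hy).2) hv.le h1 h2).trans ?_
      exact mul_le_mul_of_nonneg_left (pow_le_pow_left₀ h1.le h2.le _) hB
    have hA' : ∀ i, ‖f (x + (r * s i) • v)‖ ≤ A := by
      intro i
      refine (h _ ?_).1
      rw [Metric.mem_ball, dist_eq_norm, add_sub_cancel_left, norm_smul, hv, mul_one,
        Real.norm_of_nonneg (mul_pos hr (hs i).1).le]
      exact mul_lt_of_lt_one_right hr (hs i).2
    have hsum : ∑ i, c i • ∑ k ∈ Finset.range (m + 1),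
        ((k ! : ℝ)⁻¹ * (r * s i) ^ k) • iteratedFDeriv ℝ k f x (fun _ => v) =
        r • fderiv ℝ f x v := by
      simp only [Finset.smul_sum]
      rw [Finset.sum_comm]
      have e1 : ∀ k ∈ Finset.range (m + 1), ∑ i, c i • (((k ! : ℝ)⁻¹ * (r * s i) ^ k) •
          iteratedFDeriv ℝ k f x (fun _ => v)) =
          if k = 1 then r • fderiv ℝ f x v else 0 := by
        intro k hk
        have h1 := hc k (Finset.mem_range.1 hk)
        have h2 : ∑ i, c i • (((k ! : ℝ)⁻¹ * (r * s i) ^ k) •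
            iteratedFDeriv ℝ k f x (fun _ => v)) =
            ((∑ i, c i * s i ^ k) * ((k ! : ℝ)⁻¹ * r ^ k)) •
              iteratedFDeriv ℝ k f x (fun _ => v) := by
          rw [Finset.sum_mul, Finset.sum_smul]
          refine Finset.sum_congr rfl fun i _ => ?_
          rw [smul_smul, mul_pow]
          congr 1
          ring
        rw [h2, h1]
        split_ifs with hk1
        · subst hk1
          rw [iteratedFDeriv_one_apply]
          simp
        · simp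
      rw [Finset.sum_congr rfl e1, Finset.sum_ite_eq' (Finset.range (m + 1)) 1]
      rw [if_pos (Finset.mem_range.2 (by omega))]
    have key : ‖r • fderiv ℝ f x v‖ ≤ (∑ i, |c i|) * (A + B * r ^ (m + 1)) := by
      rw [← hsum, Finset.sum_mul]
      refine (norm_sum_le _ _).trans (Finset.sum_le_sum fun i _ => ?_)
      rw [norm_smul, Real.norm_eq_abs]
      refine mul_le_mul_of_nonneg_left ?_ (abs_nonneg _)
      have e2 : ∑ k ∈ Finset.range (m + 1),
          ((k ! : ℝ)⁻¹ * (r * s i) ^ k) • iteratedFDeriv ℝ k f x (fun _ => v) =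
          f (x + (r * s i) • v) - (f (x + (r * s i) • v) - ∑ k ∈ Finset.range (m + 1),
          ((k ! : ℝ)⁻¹ * (r * s i) ^ k) • iteratedFDeriv ℝ k f x (fun _ => v)) := by abel
      rw [e2]
      exact (norm_sub_le _ _).trans (add_le_add (hA' i) (hT i))
    rw [norm_smul, Real.norm_of_nonneg hr.le] at key
    have h3 : ‖fderiv ℝ f x v‖ ≤ (∑ i, |c i|) * (A + B * r ^ (m + 1)) / r := by
      rw [le_div_iff₀ hr]
      linarith
    refine h3.trans ?_
    have h4 : (∑ i, |c i|) * (A + B * r ^ (m + 1)) / r = (∑ i, |c i|) * (A / r + B * r ^ m) := by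
      field_simp
      ring
    rw [h4]
    refine mul_le_mul_of_nonneg_right (by linarith) (by positivity)

/-- **Local interpolation.** -/
theorem itp (m : ℕ) : ∃ C : ℝ, 1 ≤ C ∧ ∀ (F : Type) [NormedAddCommGroup F] [NormedSpace ℝ F]
    (f : E → F) (x : E) (r A B : ℝ), 0 < r → 0 ≤ A → 0 ≤ B →
    ContDiffOn ℝ ∞ f (Metric.ball x r) →
    (∀ y ∈ Metric.ball x r, ‖f y‖ ≤ A ∧ ‖iteratedFDeriv ℝ m f y‖ ≤ B) →
    ∀ j ≤ m, ‖iteratedFDeriv ℝ j f x‖ ≤ C * (A / r ^ j + B * r ^ (m - j)) := by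
  induction m with
  | zero =>
    refine ⟨1, le_rfl, ?_⟩
    intro F _ _ f x r A B hr hA hB hf h j hj
    obtain rfl : j = 0 := by omega
    have h1 := (h x (Metric.mem_ball_self hr)).1
    simp only [norm_iteratedFDeriv_zero, pow_zero, div_one, one_mul, tsub_zero, mul_one]
    linarith
  | succ m ih =>
    obtain ⟨C₀, hC₀, h₀⟩ := ih
    obtain ⟨C₁, hC₁, h₁⟩ := first (E := E) m
    have hC : (1 : ℝ) ≤ C₀ * (C₁ * 2 ^ (m + 1) + 1) := by
      have : (1 : ℝ) ≤ C₁ * 2 ^ (m + 1) + 1 := by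
        have : 0 < C₁ * 2 ^ (m + 1) := by positivity
        linarith
      calc (1 : ℝ) = 1 * 1 := (one_mul 1).symm
        _ ≤ _ := mul_le_mul hC₀ this zero_le_one (by linarith)
    refine ⟨C₀ * (C₁ * 2 ^ (m + 1) + 1), hC, ?_⟩
    intro F _ _ f x r A B hr hA hB hf h j hj
    rcases Nat.eq_zero_or_pos j with rfl | hj0
    · have h1 := (h x (Metric.mem_ball_self hr)).1
      have h2 : 0 ≤ B * r ^ (m + 1 - 0) := by positivity
      rw [norm_iteratedFDeriv_zero, pow_zero, div_one]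
      calc ‖f x‖ ≤ 1 * (A + B * r ^ (m + 1 - 0)) := by linarith
        _ ≤ _ := mul_le_mul_of_nonneg_right hC (by linarith)
    · obtain ⟨i, rfl⟩ : ∃ i, j = i + 1 := ⟨j - 1, by omega⟩
      have him : i ≤ m := by omega
      have hr2 : 0 < r / 2 := by positivity
      set A' := C₁ * (A / (r / 2) + B * (r / 2) ^ m) with hA'
      have hA'0 : 0 ≤ A' := by positivity
      have hsub : ∀ y ∈ Metric.ball x (r / 2), Metric.ball y (r / 2) ⊆ Metric.ball x r := by
        intro y hy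
        refine Metric.ball_subset_ball' ?_
        rw [Metric.mem_ball] at hy
        linarith
      have hsub' : Metric.ball x (r / 2) ⊆ Metric.ball x r :=
        Metric.ball_subset_ball (by linarith)
      have hfd : ContDiffOn ℝ ∞ (fderiv ℝ f) (Metric.ball x (r / 2)) :=
        (hf.fderiv_of_isOpen Metric.isOpen_ball (by simp)).mono hsub'
      have h2 := h₀ (E →L[ℝ] F) (fderiv ℝ f) x (r / 2) A' B hr2 hA'0 hB hfd (fun y hy =>
        ⟨h₁ F f y (r / 2) A B hr2 hA hB (hf.mono (hsub y hy)) fun z hz => h z (hsub y hy hz), by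
          rw [norm_iteratedFDeriv_fderiv]
          exact (h y (hsub' hy)).2⟩) i him
      rw [norm_iteratedFDeriv_fderiv] at h2
      refine h2.trans ?_
      rw [mul_assoc C₀]
      refine mul_le_mul_of_nonneg_left ?_ (by linarith)
      have e1 : m + 1 - (i + 1) = m - i := by omega
      rw [e1]
      have h2i : (2 : ℝ) ^ i ≤ 2 ^ m := pow_le_pow_right₀ (by norm_num) him
      have q1 : A / (r / 2) / (r / 2) ^ i = 2 ^ (i + 1) * (A / r ^ (i + 1)) := by
        rw [div_pow]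
        field_simp
        ring
      have q2 : B * (r / 2) ^ m / (r / 2) ^ i ≤ B * r ^ (m - i) := by
        have : (r / 2) ^ m = (r / 2) ^ (m - i) * (r / 2) ^ i := by
          rw [← pow_add]
          congr 1
          omega
        rw [this, ← mul_assoc, mul_div_assoc, div_self (by positivity), mul_one]
        exact mul_le_mul_of_nonneg_left (pow_le_pow_left₀ hr2.le (by linarith) _) hB
      have q3 : B * (r / 2) ^ (m - i) ≤ B * r ^ (m - i) :=
        mul_le_mul_of_nonneg_left (pow_le_pow_left₀ hr2.le (by linarith) _) hB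
      have q4 : 2 ^ (i + 1) * (A / r ^ (i + 1)) ≤ 2 ^ (m + 1) * (A / r ^ (i + 1)) := by
        refine mul_le_mul_of_nonneg_right ?_ (by positivity)
        exact pow_le_pow_right₀ (by norm_num) (by omega)
      have q5 : A' / (r / 2) ^ i = C₁ * (A / (r / 2) / (r / 2) ^ i +
          B * (r / 2) ^ m / (r / 2) ^ i) := by
        rw [hA']
        ring
      have q6 : (1 : ℝ) ≤ 2 ^ (m + 1) := one_le_pow₀ (by norm_num)
      have q7 : 0 ≤ B * r ^ (m - i) := by positivity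
      have q8 : 0 ≤ A / r ^ (i + 1) := by positivity
      have q9 : A' / (r / 2) ^ i ≤ C₁ * 2 ^ (m + 1) * (A / r ^ (i + 1) + B * r ^ (m - i)) := by
        rw [q5, q1, mul_assoc]
        refine mul_le_mul_of_nonneg_left ?_ hC₁.le
        have q10 : B * r ^ (m - i) ≤ 2 ^ (m + 1) * (B * r ^ (m - i)) :=
          le_mul_of_one_le_left q7 q6
        linarith
      have q11 : (C₁ * 2 ^ (m + 1) + 1) * (A / r ^ (i + 1) + B * r ^ (m - i)) =
          C₁ * 2 ^ (m + 1) * (A / r ^ (i + 1) + B * r ^ (m - i)) +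
            (A / r ^ (i + 1) + B * r ^ (m - i)) := by ring
      rw [q11]
      linarith

/-- Local interpolation, multiplicative form. -/
theorem itpM (m : ℕ) (hm : 1 ≤ m) : ∃ C : ℝ, 1 ≤ C ∧ ∀ (F : Type) [NormedAddCommGroup F]
    [NormedSpace ℝ F] (f : E → F) (x : E) (r A B : ℝ), 0 < r → 0 ≤ A → 0 ≤ B →
    ContDiffOn ℝ ∞ f (Metric.ball x r) →
    (∀ y ∈ Metric.ball x r, ‖f y‖ ≤ A ∧ ‖iteratedFDeriv ℝ m f y‖ ≤ B) → A ≤ B * r ^ m →
    ∀ j ≤ m, ‖iteratedFDeriv ℝ j f x‖ ≤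
      C * (A ^ (1 - (j : ℝ) / m) * B ^ ((j : ℝ) / m)) := by
  obtain ⟨C, hC, h₀⟩ := itp (E := E) m
  have hm0 : (0 : ℝ) < m := by exact_mod_cast hm
  refine ⟨2 * C, by linarith, ?_⟩
  intro F _ _ f x r A B hr hA hB hf h hAB j hj
  have hC0 : 0 < C := by linarith
  have hloc : ∀ ρ : ℝ, 0 < ρ → ρ ≤ r →
      ‖iteratedFDeriv ℝ j f x‖ ≤ C * (A / ρ ^ j + B * ρ ^ (m - j)) := fun ρ h1 h2 =>
    h₀ F f x ρ A B h1 hA hB (hf.mono (Metric.ball_subset_ball h2))
      (fun y hy => h y (Metric.ball_subset_ball h2 hy)) j hj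
  rcases hj.eq_or_lt with rfl | hjm
  · -- `j = m`
    rw [div_self hm0.ne', sub_self, Real.rpow_zero, Real.rpow_one, one_mul]
    have h1 := (h x (Metric.mem_ball_self hr)).2
    nlinarith
  rcases hA.eq_or_lt with hA0 | hA0
  · -- `A = 0`
    have h1 : Tendsto (fun ρ : ℝ => C * (A / ρ ^ j + B * ρ ^ (m - j))) (𝓝[>] 0) (𝓝 0) := by
      have h2 : Tendsto (fun ρ : ℝ => C * (B * ρ ^ (m - j))) (𝓝[>] 0) (𝓝 0) := by
        have h3 : Continuous fun ρ : ℝ => C * (B * ρ ^ (m - j)) := by fun_prop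
        have h4 := h3.tendsto 0
        rw [zero_pow (by omega), mul_zero, mul_zero] at h4
        exact h4.mono_left nhdsWithin_le_nhds
      refine h2.congr fun ρ => ?_
      rw [← hA0, zero_div, zero_add]
    have h5 : ‖iteratedFDeriv ℝ j f x‖ ≤ 0 := by
      refine ge_of_tendsto h1 ?_
      filter_upwards [Ioc_mem_nhdsGT hr] with ρ hρ
      exact hloc ρ hρ.1 hρ.2
    exact h5.trans (by positivity)
  · -- `A > 0`
    have hB0 : 0 < B := by
      rcases hB.eq_or_lt with h0 | h0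
      · rw [← h0, zero_mul] at hAB
        linarith
      · exact h0
    set ρ : ℝ := (A / B) ^ (1 / (m : ℝ)) with hρ
    have hq : 0 < A / B := div_pos hA0 hB0
    have hρ0 : 0 < ρ := Real.rpow_pos_of_pos hq _
    have hρr : ρ ≤ r := by
      have h1 : A / B ≤ r ^ m := by rwa [div_le_iff₀ hB0, mul_comm]
      calc ρ ≤ (r ^ m) ^ (1 / (m : ℝ)) := Real.rpow_le_rpow hq.le h1 (by positivity)
        _ = r := by
            rw [one_div]
            exact Real.pow_rpow_inv_natCast hr.le (by omega)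
    have h1 := hloc ρ hρ0 hρr
    have hpow : ∀ i : ℕ, ρ ^ i = (A / B) ^ ((i : ℝ) / m) := by
      intro i
      rw [hρ, ← Real.rpow_natCast, ← Real.rpow_mul hq.le]
      congr 1
      ring
    have e1 : A / ρ ^ j = A ^ (1 - (j : ℝ) / m) * B ^ ((j : ℝ) / m) := by
      rw [hpow, Real.div_rpow hA0.le hB0.le, Real.rpow_sub hA0, Real.rpow_one]
      have h2 : A ^ ((j : ℝ) / m) ≠ 0 := (Real.rpow_pos_of_pos hA0 _).ne'
      have h3 : B ^ ((j : ℝ) / m) ≠ 0 := (Real.rpow_pos_of_pos hB0 _).ne'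
      field_simp
    have e2 : B * ρ ^ (m - j) = A ^ (1 - (j : ℝ) / m) * B ^ ((j : ℝ) / m) := by
      have h4 : ((m - j : ℕ) : ℝ) / m = 1 - (j : ℝ) / m := by
        rw [Nat.cast_sub hj, sub_div, div_self hm0.ne']
      rw [hpow, h4, Real.div_rpow hA0.le hB0.le]
      have h5 : B = B ^ (1 - (j : ℝ) / m) * B ^ ((j : ℝ) / m) := by
        rw [← Real.rpow_add hB0, sub_add_cancel, Real.rpow_one]
      have h6 : B ^ (1 - (j : ℝ) / m) ≠ 0 := (Real.rpow_pos_of_pos hB0 _).ne'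
      calc B * (A ^ (1 - (j : ℝ) / m) / B ^ (1 - (j : ℝ) / m)) =
          (B ^ (1 - (j : ℝ) / m) * B ^ ((j : ℝ) / m)) *
            (A ^ (1 - (j : ℝ) / m) / B ^ (1 - (j : ℝ) / m)) := by rw [← h5]
        _ = _ := by field_simp
    rw [e1, e2] at h1
    linarith

/-- Local interpolation on the half ball. -/
theorem itp_half (m : ℕ) : ∃ C : ℝ, 1 ≤ C ∧ ∀ (F : Type) [NormedAddCommGroup F]
    [NormedSpace ℝ F] (f : E → F) (x : E) (r A B : ℝ), 0 < r → 0 ≤ A → 0 ≤ B →
    ContDiffOn ℝ ∞ f (Metric.ball x r) →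
    (∀ y ∈ Metric.ball x r, ‖f y‖ ≤ A ∧ ‖iteratedFDeriv ℝ m f y‖ ≤ B) →
    ∀ y ∈ Metric.ball x (r / 2), ∀ j ≤ m,
      ‖iteratedFDeriv ℝ j f y‖ ≤ C * (A / r ^ j + B * r ^ (m - j)) := by
  obtain ⟨C, hC, h₀⟩ := itp (E := E) m
  refine ⟨C * 2 ^ m, ?_, ?_⟩
  · calc (1 : ℝ) = 1 * 1 := (one_mul 1).symm
      _ ≤ C * 2 ^ m := mul_le_mul hC (one_le_pow₀ (by norm_num)) zero_le_one (by linarith)
  intro F _ _ f x r A B hr hA hB hf h y hy j hj
  have hr2 : 0 < r / 2 := by positivity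
  have hsub : Metric.ball y (r / 2) ⊆ Metric.ball x r := by
    refine Metric.ball_subset_ball' ?_
    rw [Metric.mem_ball] at hy
    linarith
  refine (h₀ F f y (r / 2) A B hr2 hA hB (hf.mono hsub) (fun z hz => h z (hsub hz)) j hj).trans ?_
  rw [mul_assoc]
  refine mul_le_mul_of_nonneg_left ?_ (by linarith)
  have q1 : A / (r / 2) ^ j = 2 ^ j * (A / r ^ j) := by
    rw [div_pow]
    field_simp
  have q2 : (2 : ℝ) ^ j ≤ 2 ^ m := pow_le_pow_right₀ (by norm_num) hj
  have q3 : B * (r / 2) ^ (m - j) ≤ B * r ^ (m - j) :=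
    mul_le_mul_of_nonneg_left (pow_le_pow_left₀ hr2.le (by linarith) _) hB
  have q4 : (1 : ℝ) ≤ 2 ^ m := one_le_pow₀ (by norm_num)
  have q5 : 0 ≤ B * r ^ (m - j) := by positivity
  have q6 : 0 ≤ A / r ^ j := by positivity
  rw [q1, mul_add]
  exact add_le_add (mul_le_mul_of_nonneg_right q2 q6)
    (q3.trans (le_mul_of_one_le_left q5 q4))

/-- Local interpolation on the half ball, multiplicative form. -/
theorem itpM_half (m : ℕ) (hm : 1 ≤ m) : ∃ C : ℝ, 1 ≤ C ∧ ∀ (F : Type) [NormedAddCommGroup F]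
    [NormedSpace ℝ F] (f : E → F) (x : E) (r A B : ℝ), 0 < r → 0 ≤ A → 0 ≤ B →
    ContDiffOn ℝ ∞ f (Metric.ball x r) →
    (∀ y ∈ Metric.ball x r, ‖f y‖ ≤ A ∧ ‖iteratedFDeriv ℝ m f y‖ ≤ B) → A ≤ B * r ^ m →
    ∀ y ∈ Metric.ball x (r / 2), ∀ j ≤ m, ‖iteratedFDeriv ℝ j f y‖ ≤
      C * (A ^ (1 - (j : ℝ) / m) * B ^ ((j : ℝ) / m)) := by
  obtain ⟨C, hC, h₀⟩ := itpM (E := E) m hm
  have hm0 : (0 : ℝ) < m := by exact_mod_cast hm
  have h2m : (1 : ℝ) ≤ 2 ^ m := one_le_pow₀ (by norm_num)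
  refine ⟨C * 2 ^ m, ?_, ?_⟩
  · calc (1 : ℝ) = 1 * 1 := (one_mul 1).symm
      _ ≤ C * 2 ^ m := mul_le_mul hC h2m zero_le_one (by linarith)
  intro F _ _ f x r A B hr hA hB hf h hAB y hy j hj
  have hr2 : 0 < r / 2 := by positivity
  have hsub : Metric.ball y (r / 2) ⊆ Metric.ball x r := by
    refine Metric.ball_subset_ball' ?_
    rw [Metric.mem_ball] at hy
    linarith
  have hB2 : B ≤ 2 ^ m * B := le_mul_of_one_le_left hB h2m
  have h1 := h₀ F f y (r / 2) A (2 ^ m * B) hr2 hA (by positivity) (hf.mono hsub)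
    (fun z hz => ⟨(h z (hsub hz)).1, (h z (hsub hz)).2.trans hB2⟩) (by
      have : 2 ^ m * B * (r / 2) ^ m = B * r ^ m := by
        rw [div_pow]
        field_simp
      rwa [this]) j hj
  refine h1.trans ?_
  have hjm : (j : ℝ) / m ≤ 1 := by
    rw [div_le_one hm0]
    exact_mod_cast hj
  have e1 : (2 ^ m * B) ^ ((j : ℝ) / m) ≤ 2 ^ m * B ^ ((j : ℝ) / m) := by
    rw [Real.mul_rpow (by positivity) hB]
    refine mul_le_mul_of_nonneg_right ?_ (by positivity)
    calc ((2 : ℝ) ^ m) ^ ((j : ℝ) / m) ≤ ((2 : ℝ) ^ m) ^ (1 : ℝ) :=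
          Real.rpow_le_rpow_of_exponent_le h2m hjm
      _ = 2 ^ m := Real.rpow_one _
  calc C * (A ^ (1 - (j : ℝ) / m) * (2 ^ m * B) ^ ((j : ℝ) / m)) ≤
      C * (A ^ (1 - (j : ℝ) / m) * (2 ^ m * B ^ ((j : ℝ) / m))) := by
        refine mul_le_mul_of_nonneg_left ?_ (by linarith)
        exact mul_le_mul_of_nonneg_left e1 (by positivity)
    _ = _ := by ring

/-! ### The case of `V n` -/

open Vale.Agent.P088.LR

theorem itpL (n m : ℕ) : ∃ C : ℝ, 1 ≤ C ∧ ∀ (f : V n → ℝ) (x : V n) (r A B : ℝ), 0 < r → 0 ≤ A →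
    0 ≤ B → ContDiffOn ℝ ∞ f (Metric.ball x r) →
    (∀ y ∈ Metric.ball x r, |f y| ≤ A ∧ ‖iteratedFDeriv ℝ m f y‖ ≤ B) →
    ∀ y ∈ Metric.ball x (r / 2), ∀ j ≤ m,
      ‖iteratedFDeriv ℝ j f y‖ ≤ C * (A / r ^ j + B * r ^ (m - j)) := by
  obtain ⟨C, hC, h⟩ := itp_half (E := V n) m
  exact ⟨C, hC, fun f x r A B hr hA hB hf hy => h ℝ f x r A B hr hA hB hf hy⟩

theorem itpL' (n m : ℕ) (hm : 1 ≤ m) : ∃ C : ℝ, 1 ≤ C ∧ ∀ (f : V n → ℝ) (x : V n) (r A B : ℝ),
    0 < r → 0 ≤ A → 0 ≤ B → ContDiffOn ℝ ∞ f (Metric.ball x r) →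
    (∀ y ∈ Metric.ball x r, |f y| ≤ A ∧ ‖iteratedFDeriv ℝ m f y‖ ≤ B) → A ≤ B * r ^ m →
    ∀ y ∈ Metric.ball x (r / 2), ∀ j ≤ m,
      ‖iteratedFDeriv ℝ j f y‖ ≤ C * (A ^ (1 - (j : ℝ) / m) * B ^ ((j : ℝ) / m)) := by
  obtain ⟨C, hC, h⟩ := itpM_half (E := V n) m hm
  exact ⟨C, hC, fun f x r A B hr hA hB hf hy => h ℝ f x r A B hr hA hB hf hy⟩

end Vale.Agent.P088.HY.Ipl
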