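import Vale.Agent.P088.R2.H551.V.Spec

/-!
# P088, row V-DV: tools
-/

open MeasureTheory Set Filter Topology
open scoped ContDiff Matrix

noncomputable section

namespace Vale.Agent.P088.PJ.H960

open Vale.Agent.P088.LR Vale.Agent.P088.LR.U Vale.Agent.P088.LR.H158
open Vale.Agent.P088.HY (VV Bs Bn Un DB)

variable {n N : ℕ}

/-! ### The Hilbert-Schmidt norm -/

/-- The Hilbert-Schmidt norm. -/
def fr (A : Matrix (Fin N) (Fin N) ℂ) : ℝ := √(nq A)

theorem nq_nonneg (A : Matrix (Fin N) (Fin N) ℂ) : 0 ≤ nq A :=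
  Finset.sum_nonneg fun _ _ => Finset.sum_nonneg fun _ _ => sq_nonneg _

theorem fr_nonneg (A : Matrix (Fin N) (Fin N) ℂ) : 0 ≤ fr A := Real.sqrt_nonneg _

theorem fr_sq (A : Matrix (Fin N) (Fin N) ℂ) : fr A ^ 2 = nq A := Real.sq_sqrt (nq_nonneg A)

theorem nq_zero : nq (0 : Matrix (Fin N) (Fin N) ℂ) = 0 := by simp [nq]

theorem fr_zero : fr (0 : Matrix (Fin N) (Fin N) ℂ) = 0 := by simp [fr, nq_zero]

section frob

attribute [local instance] Matrix.frobeniusNormedAddCommGroup Matrix.frobeniusNormedSpace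
  Matrix.frobeniusNormedRing

theorem fr_eq (A : Matrix (Fin N) (Fin N) ℂ) : fr A = ‖A‖ := by
  rw [Matrix.frobenius_norm_def, fr, Real.sqrt_eq_rpow]
  congr 1
  simp [nq]

theorem fr_add (A B : Matrix (Fin N) (Fin N) ℂ) : fr (A + B) ≤ fr A + fr B := by
  simp only [fr_eq]
  exact norm_add_le _ _

theorem fr_sub (A B : Matrix (Fin N) (Fin N) ℂ) : fr (A - B) ≤ fr A + fr B := by
  simp only [fr_eq]
  exact norm_sub_le _ _

theorem fr_mul (A B : Matrix (Fin N) (Fin N) ℂ) : fr (A * B) ≤ fr A * fr B := by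
  simp only [fr_eq]
  exact Matrix.frobenius_norm_mul A B

theorem fr_smul (c : ℂ) (A : Matrix (Fin N) (Fin N) ℂ) : fr (c • A) = ‖c‖ * fr A := by
  simp only [fr_eq]
  exact norm_smul c A

theorem fr_sum {ι : Type*} (s : Finset ι) (A : ι → Matrix (Fin N) (Fin N) ℂ) :
    fr (∑ i ∈ s, A i) ≤ ∑ i ∈ s, fr (A i) := by
  simp only [fr_eq]
  exact norm_sum_le _ _

end frob

theorem entry_le (A : Matrix (Fin N) (Fin N) ℂ) (a b : Fin N) : ‖A a b‖ ≤ fr A := by
  refine Real.le_sqrt_of_sq_le ?_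
  refine le_trans ?_ (Finset.single_le_sum (f := fun a => ∑ b, ‖A a b‖ ^ 2)
    (fun a _ => Finset.sum_nonneg fun _ _ => sq_nonneg _) (Finset.mem_univ a))
  exact Finset.single_le_sum (f := fun b => ‖A a b‖ ^ 2) (fun _ _ => sq_nonneg _)
    (Finset.mem_univ b)

theorem fr_le {A : Matrix (Fin N) (Fin N) ℂ} {c : ℝ} (hc : 0 ≤ c) (h : ∀ a b, ‖A a b‖ ≤ c) :
    fr A ≤ N * c := by
  refine Real.sqrt_le_iff.2 ⟨by positivity, ?_⟩
  calc nq A ≤ ∑ _a : Fin N, ∑ _b : Fin N, c ^ 2 := by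
        refine Finset.sum_le_sum fun a _ => Finset.sum_le_sum fun b _ => ?_
        exact pow_le_pow_left₀ (norm_nonneg _) (h a b) 2
    _ = (N * c) ^ 2 := by simp; ring

theorem trace_le (A : Matrix (Fin N) (Fin N) ℂ) : ‖A.trace‖ ≤ N * fr A := by
  unfold Matrix.trace
  refine (norm_sum_le _ _).trans ?_
  calc ∑ i, ‖A.diag i‖ ≤ ∑ _i : Fin N, fr A := Finset.sum_le_sum fun i _ => entry_le A i i
    _ = N * fr A := by simp

theorem trace_mul_le (A B : Matrix (Fin N) (Fin N) ℂ) : ‖(A * B).trace‖ ≤ fr A * fr B := by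
  unfold Matrix.trace
  simp only [Matrix.diag_apply, Matrix.mul_apply]
  calc ‖∑ a, ∑ b, A a b * B b a‖ ≤ ∑ a, ∑ b, ‖A a b‖ * ‖B b a‖ := by
        refine (norm_sum_le _ _).trans (Finset.sum_le_sum fun a _ => ?_)
        refine (norm_sum_le _ _).trans (Finset.sum_le_sum fun b _ => ?_)
        rw [norm_mul]
    _ = ∑ p : Fin N × Fin N, ‖A p.1 p.2‖ * ‖B p.2 p.1‖ := by
        rw [Fintype.sum_prod_type]
    _ ≤ √(∑ p : Fin N × Fin N, ‖A p.1 p.2‖ ^ 2) * √(∑ p : Fin N × Fin N, ‖B p.2 p.1‖ ^ 2) :=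
        Real.sum_mul_le_sqrt_mul_sqrt _ _ _
    _ = fr A * fr B := by
        rw [Fintype.sum_prod_type, Fintype.sum_prod_type_right]
        rfl

/-! ### Cauchy-Schwarz for integrals -/

theorem cs_int {α : Type*} [MeasurableSpace α] {μ : Measure α} {f g : α → ℝ}
    (hf : Integrable (fun x => f x ^ 2) μ) (hg : Integrable (fun x => g x ^ 2) μ)
    (hfg : Integrable (fun x => f x * g x) μ) :
    ∫ x, f x * g x ∂μ ≤ √(∫ x, f x ^ 2 ∂μ) * √(∫ x, g x ^ 2 ∂μ) := by
  set A := ∫ x, f x ^ 2 ∂μ with hA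
  set C := ∫ x, g x ^ 2 ∂μ with hC
  set B := ∫ x, f x * g x ∂μ with hB
  have hA0 : 0 ≤ A := integral_nonneg fun x => sq_nonneg _
  have key : ∀ t : ℝ, 0 ≤ A * (t * t) + (-2 * B) * t + C := by
    intro t
    have h1 : 0 ≤ ∫ x, (t * f x - g x) ^ 2 ∂μ := integral_nonneg fun x => sq_nonneg _
    have h2 : ∀ x, (t * f x - g x) ^ 2 = t ^ 2 * f x ^ 2 - (2 * t) * (f x * g x) + g x ^ 2 := by
      intro x
      ring
    simp only [h2] at h1
    have i1 : Integrable (fun x => t ^ 2 * f x ^ 2 - 2 * t * (f x * g x)) μ :=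
      (hf.const_mul _).sub (hfg.const_mul _)
    rw [integral_add i1 hg,
      integral_sub (hf.const_mul _) (hfg.const_mul _), integral_const_mul,
      integral_const_mul] at h1
    linarith
  have h3 := discrim_le_zero key
  unfold discrim at h3
  rw [← Real.sqrt_mul hA0]
  refine Real.le_sqrt_of_sq_le ?_
  nlinarith

/-! ### Derivatives -/

theorem cdp {F : Type*} [NormedAddCommGroup F] [NormedSpace ℝ F] {f : V n → F}
    (hf : ContDiff ℝ ∞ f) (j : Fin n) : ContDiff ℝ ∞ (pd j f) := by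
  have hfd : ContDiff ℝ ∞ (fderiv ℝ f) := hf.fderiv_right (by simp)
  exact hfd.clm_apply contDiff_const

theorem cl_pd {F : Type*} [NormedAddCommGroup F] [NormedSpace ℝ F] {k : ℕ} {δ : ℝ} {f : V n → F}
    (hf : ContDiff ℝ ∞ f) (h : Cl (k + 1) δ f) (i : Fin n) : Cl k δ (pd i f) := by
  intro l hl x
  let L : (V n →L[ℝ] F) →L[ℝ] F := ContinuousLinearMap.apply ℝ F (Pi.single i (1 : ℝ))
  have hL : ‖L‖ ≤ 1 := by
    refine ContinuousLinearMap.opNorm_le_bound _ zero_le_one fun T => ?_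
    have h1 : L T = T (Pi.single i 1) := rfl
    rw [h1, one_mul]
    refine (T.le_opNorm _).trans ?_
    rw [Pi.norm_single, norm_one, mul_one]
  have h2 : pd i f = L ∘ fderiv ℝ f := rfl
  rw [h2]
  have hfd : ContDiff ℝ ∞ (fderiv ℝ f) := hf.fderiv_right (by simp)
  refine (ContinuousLinearMap.norm_iteratedFDeriv_comp_left L hfd.contDiffAt
    (by exact_mod_cast le_top)).trans ?_
  rw [norm_iteratedFDeriv_fderiv]
  calc ‖L‖ * ‖iteratedFDeriv ℝ (l + 1) f x‖ ≤ 1 * ‖iteratedFDeriv ℝ (l + 1) f x‖ :=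
        mul_le_mul_of_nonneg_right hL (norm_nonneg _)
    _ ≤ δ := by rw [one_mul]; exact h (l + 1) (by omega) x

theorem cl_norm {F : Type*} [NormedAddCommGroup F] [NormedSpace ℝ F] {k : ℕ} {δ : ℝ} {f : V n → F}
    (h : Cl k δ f) (x : V n) : ‖f x‖ ≤ δ := by
  have := h 0 (Nat.zero_le _) x
  rwa [norm_iteratedFDeriv_zero] at this

theorem cl_mono {F : Type*} [NormedAddCommGroup F] [NormedSpace ℝ F] {k l : ℕ} {δ ε : ℝ}
    {f : V n → F} (h : Cl k δ f) (hl : l ≤ k) (hε : δ ≤ ε) : Cl l ε f := fun j hj x =>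
  (h j (hj.trans hl) x).trans hε

/-- Derivatives vanish off `Ω`. -/
theorem pd_off {F : Type*} [NormedAddCommGroup F] [NormedSpace ℝ F] {Ω : Set (V n)}
    (hreg : interior (closure Ω) = Ω) {f : V n → F} (hf : ContDiff ℝ ∞ f)
    (h0 : ∀ x ∉ Ω, f x = 0) (i : Fin n) : ∀ x ∉ Ω, pd i f x = 0 := by
  intro x hx
  have hc : IsClosed {y | pd i f y = 0} := isClosed_eq (cdp hf i).continuous continuous_const
  have h1 : (closure Ω)ᶜ ⊆ {y | pd i f y = 0} := by
    intro y hy
    have hev : f =ᶠ[𝓝 y] fun _ => (0 : F) := by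
      filter_upwards [isClosed_closure.isOpen_compl.mem_nhds hy] with z hz
      exact h0 z fun h => hz (subset_closure h)
    show pd i f y = 0
    unfold pd
    rw [hev.fderiv_eq]
    simp
  have h2 : x ∈ closure (closure Ω)ᶜ := by
    rw [closure_compl, hreg]
    exact hx
  exact closure_minimal h1 hc h2

theorem pdm_off {Ω : Set (V n)} (hreg : interior (closure Ω) = Ω) {f : MC n N} (hf : SmC f)
    (h0 : ∀ x ∉ Ω, f x = 0) (i : Fin n) : ∀ x ∉ Ω, pdm i f x = 0 := by
  intro x hx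
  ext a b
  simp only [pdm, Matrix.of_apply, Matrix.zero_apply]
  exact pd_off hreg (hf a b) (fun y hy => by rw [h0 y hy]; rfl) i x hx

theorem isCompact_bl0 : IsCompact (bl0 n) := by
  refine Metric.isCompact_of_isClosed_isBounded ?_ ?_
  · refine isClosed_le ?_ continuous_const
    unfold HY.sq
    fun_prop
  · refine (Metric.isBounded_iff_subset_closedBall 0).2 ⟨1 / 2, fun x hx => ?_⟩
    rw [mem_closedBall_zero_iff, pi_norm_le_iff_of_nonneg (by norm_num)]
    intro i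
    rw [Real.norm_eq_abs]
    refine abs_le_of_sq_le_sq ?_ (by norm_num)
    have h1 : x i ^ 2 ≤ HY.sq x := Finset.single_le_sum (f := fun j => x j ^ 2)
      (fun _ _ => sq_nonneg _) (Finset.mem_univ i)
    have h2 : HY.sq x ≤ 1 / 4 := hx
    calc x i ^ 2 ≤ 1 / 4 := h1.trans h2
      _ = (1 / 2) ^ 2 := by norm_num

theorem int_bl0 {F : Type*} [NormedAddCommGroup F] {f : V n → F} (hf : Continuous f) :
    IntegrableOn f (bl0 n) := hf.continuousOn.integrableOn_compact isCompact_bl0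

theorem hcs {F : Type*} [Zero F] {f : V n → F} (h : ∀ x ∉ bl0 n, f x = 0) :
    HasCompactSupport f := HasCompactSupport.intro isCompact_bl0 h

/-- Integration by parts. -/
theorem ibp {f g : V n → ℝ} (hf : ContDiff ℝ ∞ f) (hg : ContDiff ℝ ∞ g)
    (h0 : ∀ x ∉ bl0 n, g x = 0) (j : Fin n) :
    ∫ x, f x * pd j g x = -∫ x, pd j f x * g x := by
  have hc : HasCompactSupport g := hcs h0
  have hc' : HasCompactSupport (pd j g) := hc.fderiv_apply ℝ (Pi.single j 1)
  have i1 : Integrable (fun x => pd j f x * g x) :=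
    ((cdp hf j).continuous.mul hg.continuous).integrable_of_hasCompactSupport hc.mul_left
  have i2 : Integrable (fun x => f x * pd j g x) :=
    (hf.continuous.mul (cdp hg j).continuous).integrable_of_hasCompactSupport hc'.mul_left
  have i3 : Integrable (fun x => f x * g x) :=
    (hf.continuous.mul hg.continuous).integrable_of_hasCompactSupport hc.mul_left
  exact integral_mul_fderiv_eq_neg_fderiv_mul_of_integrable (μ := (volume : Measure (V n)))
    (f := f) (g := g) (v := Pi.single j 1) i1 i2 i3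
    (fun x _ => (hf.differentiable (by simp)) x) (fun x _ => (hg.differentiable (by simp)) x)

end Vale.Agent.P088.PJ.H960
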