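import Vale.Agent.P088.R2.H960.S8b

/-!
# P088, stage 3: the estimate of the mixed derivatives on the diagonal (S8), main theorem
-/

open MeasureTheory Set Function
open scoped ContDiff ENNReal NNReal Matrix

noncomputable section

namespace Vale.Agent.P088.R2.H960.S8

open Vale.Agent.P088.LR Vale.Agent.P088.HY Vale.Agent.P088.HY.EI

theorem ofr5 {a b c d e : ℝ} (ha : 0 ≤ a) (hb : 0 ≤ b) (hc : 0 ≤ c) (hd : 0 ≤ d) (he : 0 ≤ e) :
    ENNReal.ofReal (a * (b * (c * d) + e)) =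
      ENNReal.ofReal a * (ENNReal.ofReal b * (ENNReal.ofReal c * ENNReal.ofReal d) +
        ENNReal.ofReal e) := by
  rw [ENNReal.ofReal_mul ha, ENNReal.ofReal_add (mul_nonneg hb (mul_nonneg hc hd)) he,
    ENNReal.ofReal_mul hb, ENNReal.ofReal_mul hc]

/-- The weighted estimate on the diagonal. -/
theorem s8 (n : ℕ) : ∃ (K : ℕ) (C ε : ℝ), 0 < C ∧ 0 < ε ∧ ∀ (s₁ s₂ : MF n) (A : Set (V n))
    (U : Set (VV n)) (lam M : V n → ℝ) (W w F : VV n → ℝ),
    MeasurableSet A → IsOpen U → Continuous lam → (∀ x, 0 < lam x) →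
    (∀ p ∈ A, ∀ x, dist x p < 2 / lam p → lam x ≤ 2 * lam p ∧ lam p ≤ 2 * lam x) →
    (∀ p ∈ A, Metric.ball (p, p) (2 / lam p) ⊆ U) →
    (∀ p ∈ A, Nl K ε p (lam p) s₁) → (∀ p ∈ A, Nl K ε p (lam p) s₂) → ContinuousOn W U →
    (∀ p ∈ A, ∀ z ∈ Metric.ball (p, p) (2 / lam p), |W z - W (p, p)| ≤ 1) →
    ContDiffOn ℝ ∞ w U → ContDiffOn ℝ ∞ F U → (∀ z ∈ U, Lx s₁ w z + Ly s₂ w z = F z) →
    IntegrableOn (fun z => w z ^ 2 * Real.exp (-(2 * W z))) U →
    (∀ p ∈ A, ∀ l ≤ K, ∀ z ∈ Metric.ball (p, p) (2 / lam p),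
      ‖iteratedFDeriv ℝ l F z‖ ≤ M p * lam p ^ l) →
    IntegrableOn (fun p => M p ^ 2 * Real.exp (-(2 * W (p, p))) / lam p ^ (n + 4)) A →
    IntegrableOn (fun p => (∑ i, ∑ j, dx i (dy j w) (p, p) ^ 2) *
      Real.exp (-(2 * W (p, p))) / lam p ^ (n + 4)) A ∧
    ∫ p in A, (∑ i, ∑ j, dx i (dy j w) (p, p) ^ 2) * Real.exp (-(2 * W (p, p))) /
      lam p ^ (n + 4) ≤
      C * ((∫ z in U, w z ^ 2 * Real.exp (-(2 * W z))) +
        ∫ p in A, M p ^ 2 * Real.exp (-(2 * W (p, p))) / lam p ^ (n + 4)) := by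
  obtain ⟨K, C, ε, hC, hε, h⟩ := inp_loc n
  set C' : ℝ := (n : ℝ) ^ 2 * (2 * C ^ 2) * (Real.exp 2 * 16 ^ n + 1) + 1 with hC'
  refine ⟨K, C', ε, by positivity, hε, ?_⟩
  intro s₁ s₂ A U lam M W w F hA hU hl h0 hc hAU hs₁ hs₂ hW hWp hw hF hL hwi hM hMi
  -- the function on pairs
  set G : VV n → ℝ≥0∞ := fun z => ENNReal.ofReal
    (U.indicator (fun z => w z ^ 2 * Real.exp (-(2 * W z))) z) with hG
  have hGm : Measurable G := by
    classical
    have h1 : ContinuousOn (fun z => w z ^ 2 * Real.exp (-(2 * W z))) U :=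
      (hw.continuousOn.pow 2).mul (Real.continuous_exp.comp_continuousOn
        (continuousOn_const.mul hW).neg)
    have h2 := h1.measurable_piecewise (g := fun _ => (0 : ℝ)) continuousOn_const
      hU.measurableSet
    have h3 : U.piecewise (fun z => w z ^ 2 * Real.exp (-(2 * W z))) (fun _ => (0 : ℝ)) =
        U.indicator (fun z => w z ^ 2 * Real.exp (-(2 * W z))) := piecewise_eq_indicator
    rw [h3] at h2
    exact h2.ennreal_ofReal
  have hGi : ∫⁻ z, G z = ENNReal.ofReal (∫ z in U, w z ^ 2 * Real.exp (-(2 * W z))) := by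
    rw [← integral_indicator hU.measurableSet, ofReal_integral_eq_lintegral_ofReal]
    · exact (integrable_indicator_iff hU.measurableSet).2 hwi
    · refine ae_of_all _ fun z => ?_
      by_cases hz : z ∈ U
      · rw [indicator_of_mem hz]; positivity
      · rw [indicator_of_notMem hz]; exact le_rfl
  -- the mixed derivatives are continuous
  have hD : ∀ i j, ContinuousOn (fun p : V n => dx i (dy j w) (p, p)) A := by
    intro i j
    have h1 : ContDiffOn ℝ ((⊤ : ℕ∞) : WithTop ℕ∞) (dx i (dy j w)) U := by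
      have := cd_D (b := bp n) hU (cd_D (b := bp n) hU hw (Sum.inr j)) (Sum.inl i)
      rwa [D_dy, D_dx] at this
    have hAU' : ∀ p ∈ A, ((p, p) : VV n) ∈ U := fun p hp =>
      hAU p hp (Metric.mem_ball_self (div_pos two_pos (h0 p)))
    exact h1.continuousOn.comp (by fun_prop) hAU'
  have hWA : ContinuousOn (fun p : V n => W (p, p)) A := by
    have hAU' : ∀ p ∈ A, ((p, p) : VV n) ∈ U := fun p hp =>
      hAU p hp (Metric.mem_ball_self (div_pos two_pos (h0 p)))
    exact hW.comp (by fun_prop) hAU'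
  have hcont : ContinuousOn (fun p => (∑ i, ∑ j, dx i (dy j w) (p, p) ^ 2) *
      Real.exp (-(2 * W (p, p))) / lam p ^ (n + 4)) A := by
    refine ContinuousOn.div ?_ ((hl.pow _).continuousOn) fun p _ => (pow_pos (h0 p) _).ne'
    refine ContinuousOn.mul ?_ (Real.continuous_exp.comp_continuousOn
      (continuousOn_const.mul hWA).neg)
    exact continuousOn_finsetSum _ fun i _ => continuousOn_finsetSum _ fun j _ => (hD i j).pow 2
  -- the pointwise estimate
  have key : ∀ p ∈ A, ENNReal.ofReal ((∑ i, ∑ j, dx i (dy j w) (p, p) ^ 2) *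
      Real.exp (-(2 * W (p, p))) / lam p ^ (n + 4)) ≤
      ENNReal.ofReal ((n : ℝ) ^ 2 * (2 * C ^ 2)) * (ENNReal.ofReal (Real.exp 2) *
        (ENNReal.ofReal (lam p ^ n) * ∫⁻ z in Metric.ball (p, p) (2 / lam p), G z) +
        ENNReal.ofReal (M p ^ 2 * Real.exp (-(2 * W (p, p))) / lam p ^ (n + 4))) := by
    intro p hp
    have hlp := h0 p
    set B := Metric.ball ((p, p) : VV n) (2 / lam p) with hB
    have hBU : B ⊆ U := hAU p hp
    have hwB : IntegrableOn (fun z => w z ^ 2 * Real.exp (-(2 * W z))) B := hwi.mono_set hBU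
    have hBm : MeasurableSet B := measurableSet_ball
    have hpt : ∀ z ∈ B, w z ^ 2 ≤ Real.exp (2 + 2 * W (p, p)) *
        (w z ^ 2 * Real.exp (-(2 * W z))) := by
      intro z hz
      have h1 := (abs_le.1 (hWp p hp z hz)).2
      have h2 : 1 ≤ Real.exp (2 + 2 * W (p, p)) * Real.exp (-(2 * W z)) := by
        rw [← Real.exp_add]
        exact Real.one_le_exp (by linarith)
      calc w z ^ 2 = w z ^ 2 * 1 := (mul_one _).symm
        _ ≤ w z ^ 2 * (Real.exp (2 + 2 * W (p, p)) * Real.exp (-(2 * W z))) :=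
            mul_le_mul_of_nonneg_left h2 (sq_nonneg _)
        _ = _ := by ring
    have hw2 : IntegrableOn (fun z => w z ^ 2) B := by
      refine Integrable.mono' (hwB.const_mul (Real.exp (2 + 2 * W (p, p)))) ?_ ?_
      · exact ((hw.mono hBU).continuousOn.pow 2).aestronglyMeasurable hBm
      · refine (ae_restrict_iff' hBm).2 (ae_of_all _ fun z hz => ?_)
        rw [Real.norm_of_nonneg (sq_nonneg _)]
        exact hpt z hz
    have hI : ∫ z in B, w z ^ 2 ≤ Real.exp (2 + 2 * W (p, p)) *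
        ∫ z in B, w z ^ 2 * Real.exp (-(2 * W z)) := by
      rw [← integral_const_mul]
      exact setIntegral_mono_on hw2 (hwB.const_mul _) hBm hpt
    have hJ0 : 0 ≤ ∫ z in B, w z ^ 2 * Real.exp (-(2 * W z)) :=
      setIntegral_nonneg hBm fun z _ => by positivity
    have hI0 : 0 ≤ ∫ z in B, w z ^ 2 := setIntegral_nonneg hBm fun z _ => sq_nonneg _
    have hGJ : ∫⁻ z in B, G z =
        ENNReal.ofReal (∫ z in B, w z ^ 2 * Real.exp (-(2 * W z))) := by
      rw [ofReal_integral_eq_lintegral_ofReal hwB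
        ((ae_restrict_iff' hBm).2 (ae_of_all _ fun z _ => by positivity))]
      refine setLIntegral_congr_fun hBm fun z hz => ?_
      simp only [hG, indicator_of_mem (hBU hz)]
    have hM0 : 0 ≤ M p := by
      have := (norm_nonneg _).trans (hM p hp 0 (Nat.zero_le _) (p, p)
        (Metric.mem_ball_self (div_pos two_pos hlp)))
      simpa using this
    have est : ∀ i j, dx i (dy j w) (p, p) ^ 2 ≤
        2 * C ^ 2 * (lam p ^ (2 * n + 4) * (∫ z in B, w z ^ 2) + M p ^ 2) := by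
      intro i j
      have e1 := h s₁ s₂ p (lam p) hlp (hs₁ p hp) (hs₂ p hp) w F (hw.mono hBU) (hF.mono hBU)
        (fun z hz => hL z (hBU hz)) hw2 (M p) (fun l hl z hz => hM p hp l hl z hz) i j
      have e2 : dx i (dy j w) (p, p) ^ 2 ≤
          (C * (lam p ^ (n + 2) * √(∫ z in B, w z ^ 2) + M p)) ^ 2 := by
        rw [← sq_abs]
        exact pow_le_pow_left₀ (abs_nonneg _) e1 2
      have e3 : (lam p ^ (n + 2) * √(∫ z in B, w z ^ 2)) ^ 2 =
          lam p ^ (2 * n + 4) * ∫ z in B, w z ^ 2 := by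
        rw [mul_pow, Real.sq_sqrt hI0, ← pow_mul]
        congr 2
        ring
      have e4 : (lam p ^ (n + 2) * √(∫ z in B, w z ^ 2) + M p) ^ 2 ≤
          2 * (lam p ^ (2 * n + 4) * (∫ z in B, w z ^ 2) + M p ^ 2) := by
        rw [← e3]
        nlinarith [sq_nonneg (lam p ^ (n + 2) * √(∫ z in B, w z ^ 2) - M p)]
      calc dx i (dy j w) (p, p) ^ 2 ≤ _ := e2
        _ = C ^ 2 * (lam p ^ (n + 2) * √(∫ z in B, w z ^ 2) + M p) ^ 2 := by ring
        _ ≤ C ^ 2 * (2 * (lam p ^ (2 * n + 4) * (∫ z in B, w z ^ 2) + M p ^ 2)) :=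
            mul_le_mul_of_nonneg_left e4 (by positivity)
        _ = _ := by ring
    have est2 : ∑ i : Fin n, ∑ j : Fin n, dx i (dy j w) (p, p) ^ 2 ≤
        (n : ℝ) ^ 2 * (2 * C ^ 2 * (lam p ^ (2 * n + 4) * (∫ z in B, w z ^ 2) + M p ^ 2)) := by
      calc ∑ i : Fin n, ∑ j : Fin n, dx i (dy j w) (p, p) ^ 2 ≤ ∑ _i : Fin n, ∑ _j : Fin n,
            2 * C ^ 2 * (lam p ^ (2 * n + 4) * (∫ z in B, w z ^ 2) + M p ^ 2) :=
            Finset.sum_le_sum fun i _ => Finset.sum_le_sum fun j _ => est i j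
        _ = _ := by
            simp only [Finset.sum_const, Finset.card_univ, Fintype.card_fin, nsmul_eq_mul]
            ring
    have hexp : 0 < Real.exp (-(2 * W (p, p))) := Real.exp_pos _
    have est3 : (∑ i, ∑ j, dx i (dy j w) (p, p) ^ 2) *
        Real.exp (-(2 * W (p, p))) / lam p ^ (n + 4) ≤
        (n : ℝ) ^ 2 * (2 * C ^ 2) * (Real.exp 2 * (lam p ^ n *
          ∫ z in B, w z ^ 2 * Real.exp (-(2 * W z))) +
          M p ^ 2 * Real.exp (-(2 * W (p, p))) / lam p ^ (n + 4)) := by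
      rw [div_le_iff₀ (pow_pos hlp _)]
      have e5 : (lam p ^ (2 * n + 4) * (∫ z in B, w z ^ 2) + M p ^ 2) *
          Real.exp (-(2 * W (p, p))) ≤
          (Real.exp 2 * (lam p ^ n * ∫ z in B, w z ^ 2 * Real.exp (-(2 * W z))) +
          M p ^ 2 * Real.exp (-(2 * W (p, p))) / lam p ^ (n + 4)) * lam p ^ (n + 4) := by
        have e6 : Real.exp (2 + 2 * W (p, p)) * Real.exp (-(2 * W (p, p))) = Real.exp 2 := by
          rw [← Real.exp_add]; congr 1; ring
        have e7 : lam p ^ (2 * n + 4) = lam p ^ n * lam p ^ (n + 4) := by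
          rw [← pow_add]; congr 1; ring
        rw [add_mul, add_mul, div_mul_cancel₀ _ (pow_pos hlp _).ne', e7]
        refine add_le_add ?_ le_rfl
        calc lam p ^ n * lam p ^ (n + 4) * (∫ z in B, w z ^ 2) * Real.exp (-(2 * W (p, p)))
            ≤ lam p ^ n * lam p ^ (n + 4) * (Real.exp (2 + 2 * W (p, p)) *
              ∫ z in B, w z ^ 2 * Real.exp (-(2 * W z))) * Real.exp (-(2 * W (p, p))) := by
              gcongr
          _ = (Real.exp (2 + 2 * W (p, p)) * Real.exp (-(2 * W (p, p)))) *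
              (lam p ^ n * ∫ z in B, w z ^ 2 * Real.exp (-(2 * W z))) * lam p ^ (n + 4) := by
              ring
          _ = _ := by rw [e6]
      calc (∑ i, ∑ j, dx i (dy j w) (p, p) ^ 2) * Real.exp (-(2 * W (p, p)))
          ≤ (n : ℝ) ^ 2 * (2 * C ^ 2 * (lam p ^ (2 * n + 4) * (∫ z in B, w z ^ 2) + M p ^ 2)) *
            Real.exp (-(2 * W (p, p))) := mul_le_mul_of_nonneg_right est2 hexp.le
        _ = (n : ℝ) ^ 2 * (2 * C ^ 2) * ((lam p ^ (2 * n + 4) * (∫ z in B, w z ^ 2) +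
            M p ^ 2) * Real.exp (-(2 * W (p, p)))) := by ring
        _ ≤ (n : ℝ) ^ 2 * (2 * C ^ 2) * _ := mul_le_mul_of_nonneg_left e5 (by positivity)
        _ = _ := by ring
    refine (ENNReal.ofReal_le_ofReal est3).trans (le_of_eq ?_)
    have hz1 : 0 ≤ M p ^ 2 * Real.exp (-(2 * W (p, p))) / lam p ^ (n + 4) := by positivity
    rw [ofr5 (by positivity) (by positivity) (by positivity) hJ0 hz1, hGJ]
  -- integration
  have hMl : ∫⁻ p in A, ENNReal.ofReal (M p ^ 2 * Real.exp (-(2 * W (p, p))) /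
      lam p ^ (n + 4)) = ENNReal.ofReal (∫ p in A, M p ^ 2 * Real.exp (-(2 * W (p, p))) /
      lam p ^ (n + 4)) := by
    rw [ofReal_integral_eq_lintegral_ofReal hMi]
    exact ae_of_all _ fun p => by
      have := h0 p
      positivity
  have hMm : AEMeasurable (fun p => ENNReal.ofReal (M p ^ 2 * Real.exp (-(2 * W (p, p))) /
      lam p ^ (n + 4))) (volume.restrict A) := hMi.aestronglyMeasurable.aemeasurable.ennreal_ofReal
  have hI0 : 0 ≤ ∫ z in U, w z ^ 2 * Real.exp (-(2 * W z)) :=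
    setIntegral_nonneg hU.measurableSet fun z _ => by positivity
  have hN0 : 0 ≤ ∫ p in A, M p ^ 2 * Real.exp (-(2 * W (p, p))) / lam p ^ (n + 4) :=
    setIntegral_nonneg hA fun p _ => by
      have := h0 p
      positivity
  have tot : ∫⁻ p in A, ENNReal.ofReal ((∑ i, ∑ j, dx i (dy j w) (p, p) ^ 2) *
      Real.exp (-(2 * W (p, p))) / lam p ^ (n + 4)) ≤
      ENNReal.ofReal (C' * ((∫ z in U, w z ^ 2 * Real.exp (-(2 * W z))) +
        ∫ p in A, M p ^ 2 * Real.exp (-(2 * W (p, p))) / lam p ^ (n + 4))) := by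
    calc ∫⁻ p in A, ENNReal.ofReal ((∑ i, ∑ j, dx i (dy j w) (p, p) ^ 2) *
          Real.exp (-(2 * W (p, p))) / lam p ^ (n + 4))
        ≤ ∫⁻ p in A, ENNReal.ofReal ((n : ℝ) ^ 2 * (2 * C ^ 2)) * (ENNReal.ofReal (Real.exp 2) *
          (ENNReal.ofReal (lam p ^ n) * ∫⁻ z in Metric.ball (p, p) (2 / lam p), G z) +
          ENNReal.ofReal (M p ^ 2 * Real.exp (-(2 * W (p, p))) / lam p ^ (n + 4))) :=
          setLIntegral_mono' hA key
      _ = ENNReal.ofReal ((n : ℝ) ^ 2 * (2 * C ^ 2)) * (ENNReal.ofReal (Real.exp 2) *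
          (∫⁻ p in A, ENNReal.ofReal (lam p ^ n) *
            ∫⁻ z in Metric.ball (p, p) (2 / lam p), G z) +
          ∫⁻ p in A, ENNReal.ofReal (M p ^ 2 * Real.exp (-(2 * W (p, p))) /
            lam p ^ (n + 4))) := by
          rw [lintegral_const_mul' _ _ ENNReal.ofReal_ne_top, lintegral_add_right' _ hMm,
            lintegral_const_mul' _ _ ENNReal.ofReal_ne_top]
      _ ≤ ENNReal.ofReal ((n : ℝ) ^ 2 * (2 * C ^ 2)) * (ENNReal.ofReal (Real.exp 2) *
          (ENNReal.ofReal (16 ^ n) * ∫⁻ z, G z) +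
          ∫⁻ p in A, ENNReal.ofReal (M p ^ 2 * Real.exp (-(2 * W (p, p))) /
            lam p ^ (n + 4))) := by
          gcongr
          exact swap hA hl h0 hc hGm
      _ = ENNReal.ofReal ((n : ℝ) ^ 2 * (2 * C ^ 2) * (Real.exp 2 *
          (16 ^ n * ∫ z in U, w z ^ 2 * Real.exp (-(2 * W z))) +
          ∫ p in A, M p ^ 2 * Real.exp (-(2 * W (p, p))) / lam p ^ (n + 4))) := by
          rw [hGi, hMl, ofr5 (by positivity) (by positivity) (by positivity) hI0 hN0]
      _ ≤ _ := by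
          refine ENNReal.ofReal_le_ofReal ?_
          set I := ∫ z in U, w z ^ 2 * Real.exp (-(2 * W z))
          set N := ∫ p in A, M p ^ 2 * Real.exp (-(2 * W (p, p))) / lam p ^ (n + 4)
          set c := (n : ℝ) ^ 2 * (2 * C ^ 2) with hcd
          have hc0 : 0 ≤ c := by positivity
          have hT : 0 ≤ Real.exp 2 * 16 ^ n := by positivity
          have e1 : Real.exp 2 * (16 ^ n * I) + N ≤ (Real.exp 2 * 16 ^ n + 1) * (I + N) := by
            nlinarith [mul_nonneg hT hN0]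
          calc c * (Real.exp 2 * (16 ^ n * I) + N) ≤
              c * ((Real.exp 2 * 16 ^ n + 1) * (I + N)) := mul_le_mul_of_nonneg_left e1 hc0
            _ ≤ C' * (I + N) := by
                rw [hC', add_mul, one_mul]
                nlinarith
  have hpos : ∀ p, 0 ≤ (∑ i, ∑ j, dx i (dy j w) (p, p) ^ 2) *
      Real.exp (-(2 * W (p, p))) / lam p ^ (n + 4) := fun p => by
    have := h0 p
    have h1 : 0 ≤ ∑ i, ∑ j, dx i (dy j w) (p, p) ^ 2 :=
      Finset.sum_nonneg fun i _ => Finset.sum_nonneg fun j _ => sq_nonneg _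
    positivity
  have hint : IntegrableOn (fun p => (∑ i, ∑ j, dx i (dy j w) (p, p) ^ 2) *
      Real.exp (-(2 * W (p, p))) / lam p ^ (n + 4)) A := by
    refine ⟨hcont.aestronglyMeasurable hA, ?_⟩
    rw [hasFiniteIntegral_iff_ofReal (ae_of_all _ hpos)]
    exact tot.trans_lt ENNReal.ofReal_lt_top
  refine ⟨hint, ?_⟩
  rw [← ofReal_integral_eq_lintegral_ofReal hint (ae_of_all _ hpos)] at tot
  exact (ENNReal.ofReal_le_ofReal_iff (by positivity)).1 tot

end Vale.Agent.P088.R2.H960.S8
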