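import Vale.Agent.P088.R2.H901.Inp

/-!
# P088, stage 3: the interior estimate on pairs at the scale `1/λ`, local hypotheses
-/

open MeasureTheory Set Function
open scoped ContDiff ENNReal NNReal Matrix

noncomputable section

namespace Vale.Agent.P088.R2.H960.S8

open Vale.Agent.P088.LR Vale.Agent.P088.HY Vale.Agent.P088.HY.EI

variable {n : ℕ}

/-- Pull back of a bounded function of the first variable. -/
theorem Bd_fst_loc {A : ℝ} (hA : 0 ≤ A) {B : Set (V n)} (hB : IsOpen B) {B' : Set (VV n)}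
    (hB' : IsOpen B') (hBB : ∀ z ∈ B', z.1 ∈ B) : ∀ (k : ℕ) {g : V n → ℝ},
    ContDiffOn ℝ ((⊤ : ℕ∞) : WithTop ℕ∞) g B → Bd (Pi.basisFun ℝ (Fin n)) k B A g → ∀ s : ℝ, |s| ≤ 1 →
    Bd (bp n) k B' A (fun z => s * g z.1) := by
  intro k
  have h0 : ∀ {g : V n → ℝ}, (∀ x ∈ B, |g x| ≤ A) → ∀ s : ℝ, |s| ≤ 1 → ∀ z ∈ B',
      |s * g z.1| ≤ A := by
    intro g hg s hs z hz
    rw [abs_mul]
    calc |s| * |g z.1| ≤ 1 * A := mul_le_mul hs (hg _ (hBB z hz)) (abs_nonneg _)
          zero_le_one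
      _ = A := one_mul A
  induction k with
  | zero => intro g _ hg s hs z hz; exact h0 hg s hs z hz
  | succ k ih =>
    intro g hgs hg s hs
    have hd : ∀ z ∈ B', HasFDerivAt (fun z : VV n => s * g z.1)
        (s • (fderiv ℝ g z.1).comp (ContinuousLinearMap.fst ℝ (V n) (V n))) z := by
      intro z hz
      have h1 : DifferentiableAt ℝ g z.1 :=
        ((hgs z.1 (hBB z hz)).contDiffAt (hB.mem_nhds (hBB z hz))).differentiableAt (by simp)
      exact ((h1.hasFDerivAt).comp z hasFDerivAt_fst).const_mul s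
    have hgD : ∀ i, ContDiffOn ℝ ((⊤ : ℕ∞) : WithTop ℕ∞) (D (Pi.basisFun ℝ (Fin n)) i g) B :=
      fun i => cd_D hB hgs i
    refine ⟨fun z hz => h0 hg.1 s hs z hz, fun i => ?_⟩
    rcases i with i | i
    · refine Bd.congr hB' (f := fun z => s * D (Pi.basisFun ℝ (Fin n)) i g z.1) ?_
        (ih (hgD i) (hg.2 i) s hs)
      intro z hz
      simp only [D]
      rw [(hd z hz).fderiv, bp_inl]
      simp
    · refine Bd.congr hB' (f := fun z => 0 * g z.1) ?_ (ih hgs hg.down 0 (by simp))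
      intro z hz
      simp only [D]
      rw [(hd z hz).fderiv, bp_inr]
      simp

/-- Pull back of a bounded function of the second variable. -/
theorem Bd_snd_loc {A : ℝ} (hA : 0 ≤ A) {B : Set (V n)} (hB : IsOpen B) {B' : Set (VV n)}
    (hB' : IsOpen B') (hBB : ∀ z ∈ B', z.2 ∈ B) : ∀ (k : ℕ) {g : V n → ℝ},
    ContDiffOn ℝ ((⊤ : ℕ∞) : WithTop ℕ∞) g B → Bd (Pi.basisFun ℝ (Fin n)) k B A g → ∀ s : ℝ, |s| ≤ 1 →
    Bd (bp n) k B' A (fun z => s * g z.2) := by
  intro k
  have h0 : ∀ {g : V n → ℝ}, (∀ x ∈ B, |g x| ≤ A) → ∀ s : ℝ, |s| ≤ 1 → ∀ z ∈ B',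
      |s * g z.2| ≤ A := by
    intro g hg s hs z hz
    rw [abs_mul]
    calc |s| * |g z.2| ≤ 1 * A := mul_le_mul hs (hg _ (hBB z hz)) (abs_nonneg _)
          zero_le_one
      _ = A := one_mul A
  induction k with
  | zero => intro g _ hg s hs z hz; exact h0 hg s hs z hz
  | succ k ih =>
    intro g hgs hg s hs
    have hd : ∀ z ∈ B', HasFDerivAt (fun z : VV n => s * g z.2)
        (s • (fderiv ℝ g z.2).comp (ContinuousLinearMap.snd ℝ (V n) (V n))) z := by
      intro z hz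
      have h1 : DifferentiableAt ℝ g z.2 :=
        ((hgs z.2 (hBB z hz)).contDiffAt (hB.mem_nhds (hBB z hz))).differentiableAt (by simp)
      exact ((h1.hasFDerivAt).comp z hasFDerivAt_snd).const_mul s
    have hgD : ∀ i, ContDiffOn ℝ ((⊤ : ℕ∞) : WithTop ℕ∞) (D (Pi.basisFun ℝ (Fin n)) i g) B :=
      fun i => cd_D hB hgs i
    refine ⟨fun z hz => h0 hg.1 s hs z hz, fun i => ?_⟩
    rcases i with i | i
    · refine Bd.congr hB' (f := fun z => 0 * g z.2) ?_ (ih hgs hg.down 0 (by simp))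
      intro z hz
      simp only [D]
      rw [(hd z hz).fderiv, bp_inl]
      simp
    · refine Bd.congr hB' (f := fun z => s * D (Pi.basisFun ℝ (Fin n)) i g z.2) ?_
        (ih (hgD i) (hg.2 i) s hs)
      intro z hz
      simp only [D]
      rw [(hd z hz).fderiv, bp_inr]
      simp

/-- The closeness to `1` of a matrix field at the scale `1/λ`. -/
def Nl (K : ℕ) (ε : ℝ) (p : V n) (lam : ℝ) (s : MF n) : Prop :=
  (∀ i j, ContDiffOn ℝ ∞ (fun x => s x i j) (Metric.ball p (2 / lam))) ∧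
  ∀ i j, ∀ l ≤ K, ∀ x ∈ Metric.ball p (2 / lam), ‖iteratedFDeriv ℝ l
    (fun x => s x i j - (1 : Matrix (Fin n) (Fin n) ℝ) i j) x‖ ≤ ε * lam ^ l

theorem cc2_CO_loc {s₁ s₂ : MF n} {K : ℕ} {p : V n} {lam : ℝ} (hl : 0 < lam)
    (h₁ : Nl K (1 / (2 * Fintype.card (Fin n ⊕ Fin n) + 2)) p lam s₁)
    (h₂ : Nl K (1 / (2 * Fintype.card (Fin n ⊕ Fin n) + 2)) p lam s₂) :
    CO (bp n) K (cc2 s₁ s₂ p lam⁻¹) := by
  have eps : (0 : ℝ) < 1 / (2 * Fintype.card (Fin n ⊕ Fin n) + 2) := by positivity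
  set t : ℝ := lam⁻¹ with ht
  have ht0 : 0 < t := by rw [ht]; positivity
  have hmem : ∀ x : V n, x ∈ Metric.ball (0 : V n) 2 → p + t • x ∈ Metric.ball p (2 / lam) := by
    intro x hx
    rw [Metric.mem_ball, dist_eq_norm] at hx ⊢
    rw [sub_zero] at hx
    rw [add_sub_cancel_left, norm_smul, Real.norm_of_nonneg ht0.le, ht, inv_mul_eq_div]
    exact (div_lt_div_iff_of_pos_right hl).2 hx
  have hφ : ContDiff ℝ ((⊤ : ℕ∞) : WithTop ℕ∞) (fun x : V n => p + t • x) := by fun_prop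
  have main : ∀ s : MF n, Nl K (1 / (2 * Fintype.card (Fin n ⊕ Fin n) + 2)) p lam s → ∀ i j,
      ContDiffOn ℝ ((⊤ : ℕ∞) : WithTop ℕ∞) (fun x : V n => s (p + t • x) i j) (Metric.ball 0 2) ∧
      Bd (Pi.basisFun ℝ (Fin n)) K (Metric.ball 0 2)
        (1 / (2 * Fintype.card (Fin n ⊕ Fin n) + 2))
        (fun x : V n => s (p + t • x) i j - (1 : Matrix (Fin n) (Fin n) ℝ) i j) := by
    intro s hs i j
    refine ⟨(hs.1 i j).comp hφ.contDiffOn hmem, ?_⟩
    have := Bd_scale (b := Pi.basisFun ℝ (Fin n)) (B := Metric.ball p (2 / lam))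
      (B' := Metric.ball 0 2) Metric.isOpen_ball Metric.isOpen_ball norm_bF eps.le hl ht
      (a := p) hmem ((hs.1 i j).sub contDiffOn_const) (s := 1) zero_le_one K 0 Fin.elim0
      (fun j => j.elim0) (fun l hl x hx => hs.2 i j l (by omega) x hx)
    rw [one_mul] at this
    refine this.congr Metric.isOpen_ball fun z _ => ?_
    simp
  have z0 : Bd (bp n) K (Metric.ball 0 2) (1 / (2 * Fintype.card (Fin n ⊕ Fin n) + 2))
      (fun _ => (0 : ℝ)) := by
    have : ∀ k, Bd (bp n) k (Metric.ball (0 : VV n) 2)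
        (1 / (2 * Fintype.card (Fin n ⊕ Fin n) + 2)) (fun _ => (0 : ℝ)) := by
      intro k
      induction k with
      | zero => intro x _; simpa using eps.le
      | succ k ih =>
        refine ⟨fun x _ => by simpa using eps.le, fun i => ?_⟩
        have : D (bp n) i (fun _ : VV n => (0 : ℝ)) = fun _ => 0 := by
          funext z; exact D_const 0 i
        rw [this]; exact ih
    exact this K
  have m1 : ∀ z ∈ Metric.ball (0 : VV n) 2, z.1 ∈ Metric.ball (0 : V n) 2 := by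
    intro z hz
    rw [mem_ball_zero_iff] at hz ⊢
    exact (norm_fst_le z).trans_lt hz
  have m2 : ∀ z ∈ Metric.ball (0 : VV n) 2, z.2 ∈ Metric.ball (0 : V n) 2 := by
    intro z hz
    rw [mem_ball_zero_iff] at hz ⊢
    exact (norm_snd_le z).trans_lt hz
  constructor
  · rintro (i | i) (j | j)
    · exact (main s₁ h₁ i j).1.comp contDiff_fst.contDiffOn m1
    · exact contDiffOn_const
    · exact contDiffOn_const
    · exact (main s₂ h₂ i j).1.comp contDiff_snd.contDiffOn m2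
  · rintro (i | i) (j | j)
    · have := Bd_fst_loc eps.le Metric.isOpen_ball Metric.isOpen_ball m1 K
        ((main s₁ h₁ i j).1.sub contDiffOn_const) (main s₁ h₁ i j).2 1 (by simp)
      simpa only [one_mul, one_kd, cc2, kd, Sum.inl.injEq] using this
    · simpa [cc2, kd] using z0
    · simpa [cc2, kd] using z0
    · have := Bd_snd_loc eps.le Metric.isOpen_ball Metric.isOpen_ball m2 K
        ((main s₂ h₂ i j).1.sub contDiffOn_const) (main s₂ h₂ i j).2 1 (by simp)
      simpa only [one_mul, one_kd, cc2, kd, Sum.inr.injEq] using this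

/-- The interior estimate. -/
theorem inp_loc (n : ℕ) : ∃ (K : ℕ) (C ε : ℝ), 0 < C ∧ 0 < ε ∧ ∀ (s₁ s₂ : MF n) (p : V n)
    (lam : ℝ), 0 < lam → Nl K ε p lam s₁ → Nl K ε p lam s₂ → ∀ w F : VV n → ℝ,
    ContDiffOn ℝ ∞ w (Metric.ball (p, p) (2 / lam)) →
    ContDiffOn ℝ ∞ F (Metric.ball (p, p) (2 / lam)) →
    (∀ z ∈ Metric.ball (p, p) (2 / lam), Lx s₁ w z + Ly s₂ w z = F z) →
    IntegrableOn (fun z => w z ^ 2) (Metric.ball (p, p) (2 / lam)) →
    ∀ M : ℝ, (∀ l ≤ K, ∀ z ∈ Metric.ball (p, p) (2 / lam),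
      ‖iteratedFDeriv ℝ l F z‖ ≤ M * lam ^ l) →
    ∀ i j, |dx i (dy j w) (p, p)| ≤
      C * (lam ^ (n + 2) * √(∫ z in Metric.ball (p, p) (2 / lam), w z ^ 2) + M) := by
  have hHaar := haar_VV n
  obtain ⟨C, hC, h⟩ := EI.core (volume : Measure (VV n)) (bp n) 2
  refine ⟨Fintype.card (Fin n ⊕ Fin n) + 2 + 1, C, 1 / (2 * Fintype.card (Fin n ⊕ Fin n) + 2),
    hC, by positivity, ?_⟩
  intro s₁ s₂ p lam hl0 h₁ h₂ w F hw hF hL hwi M hM i j
  set t : ℝ := lam⁻¹ with ht
  have ht0 : 0 < t := by rw [ht]; positivity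
  have htl : t * lam = 1 := inv_mul_cancel₀ hl0.ne'
  set B : Set (VV n) := Metric.ball (p, p) (2 / lam) with hB
  have hBo : IsOpen B := Metric.isOpen_ball
  set O : Set (VV n) := Metric.ball 0 2 with hO
  have hOo : IsOpen O := Metric.isOpen_ball
  have hmem : ∀ z : VV n, (p, p) + t • z ∈ B ↔ z ∈ O := by
    intro z
    rw [hB, hO, Metric.mem_ball, Metric.mem_ball, dist_eq_norm, dist_eq_norm, add_sub_cancel_left,
      sub_zero, norm_smul, Real.norm_of_nonneg ht0.le, ht, inv_mul_eq_div,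
      div_lt_div_iff_of_pos_right hl0]
  have hM0 : 0 ≤ M := by
    have := (norm_nonneg _).trans (hM 0 (Nat.zero_le _) (p, p) (Metric.mem_ball_self (by positivity)))
    simpa using this
  set w' : VV n → ℝ := fun z => w ((p, p) + t • z) with hw'
  have hφ : ContDiff ℝ ((⊤ : ℕ∞) : WithTop ℕ∞) (fun z : VV n => (p, p) + t • z) := by fun_prop
  have hw's : ContDiffOn ℝ ((⊤ : ℕ∞) : WithTop ℕ∞) w' O := hw.comp hφ.contDiffOn fun z hz => (hmem z).2 hz
  -- derivatives
  have d1 : ∀ q : Fin n ⊕ Fin n, ∀ z ∈ O, D (bp n) q w' z = t * D (bp n) q w ((p, p) + t • z) :=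
    fun q z hz => D_scale (da hBo hw ((hmem z).2 hz)) q
  have d2 : ∀ q r : Fin n ⊕ Fin n, ∀ z ∈ O, D (bp n) q (D (bp n) r w') z =
      t ^ 2 * D (bp n) q (D (bp n) r w) ((p, p) + t • z) := by
    intro q r z hz
    have hz' := (hmem z).2 hz
    have hdd : DifferentiableAt ℝ (fun z => D (bp n) r w ((p, p) + t • z)) z :=
      da hOo ((cd_D (b := bp n) hBo hw r).comp hφ.contDiffOn (fun z hz => (hmem z).2 hz)) hz
    rw [D_congr hOo (d1 r) hz q, D_mul (differentiableAt_const _) hdd, D_const, zero_mul, add_zero,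
      D_scale (b := bp n) (da hBo (cd_D (b := bp n) hBo hw r) hz') q]
    ring
  -- the equation
  have eL : ∀ z ∈ O, t ^ 2 * F ((p, p) + t • z) = Lc (bp n) (cc2 s₁ s₂ p t) w' z := by
    intro z hz
    have hz' := (hmem z).2 hz
    rw [← hL _ hz']
    unfold Lc
    simp only [Fintype.sum_sum_type, d2 _ _ z hz, cc2, zero_mul, Finset.sum_const_zero, add_zero,
      zero_add, D_dx, D_dy]
    unfold Lx Ly
    simp only [Prod.fst_add, Prod.snd_add, Prod.smul_fst, Prod.smul_snd, mul_add, Finset.mul_sum]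
    congr 1
    · exact Finset.sum_congr rfl fun i _ => Finset.sum_congr rfl fun j _ => by ring
    · exact Finset.sum_congr rfl fun i _ => Finset.sum_congr rfl fun j _ => by ring
  have hBF : Bd (bp n) (Fintype.card (Fin n ⊕ Fin n) + 2) O (t ^ 2 * M)
      (Lc (bp n) (cc2 s₁ s₂ p t) w') := by
    have := Bd_scale (b := bp n) hBo hOo bp_norm hM0 hl0 ht (a := (p, p))
      (fun z hz => (hmem z).2 hz) hF (s := t ^ 2) (by positivity)
      (Fintype.card (Fin n ⊕ Fin n) + 2) 0 Fin.elim0 (fun j => j.elim0)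
      (fun l hl x hx => hM l (by omega) x hx)
    refine this.congr hOo fun z hz => ?_
    rw [← eL z hz]
    simp
  -- integrals
  have hind : ∀ z, O.indicator (fun z => w' z ^ 2) z =
      (B.indicator fun y => w y ^ 2) ((p, p) + t • z) := by
    intro z
    by_cases hz : z ∈ O
    · rw [indicator_of_mem hz, indicator_of_mem ((hmem z).2 hz)]
    · rw [indicator_of_notMem hz, indicator_of_notMem (fun h => hz ((hmem z).1 h))]
  have hgi : Integrable (B.indicator fun y => w y ^ 2) :=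
    (integrable_indicator_iff hBo.measurableSet).2 hwi
  have hw'i : IntegrableOn (fun z => w' z ^ 2) O := by
    rw [← integrable_indicator_iff hOo.measurableSet]
    have h1 := (hgi.comp_add_left (p, p)).comp_smul ht0.ne'
    refine h1.congr (ae_of_all _ fun z => ?_)
    exact (hind z).symm
  have hfr : Module.finrank ℝ (VV n) = 2 * n := by
    rw [Module.finrank_prod, Module.finrank_fin_fun]; ring
  have hint : ∫ z in O, w' z ^ 2 = (lam ^ n) ^ 2 * ∫ z in B, w z ^ 2 := by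
    rw [← integral_indicator hOo.measurableSet, ← integral_indicator hBo.measurableSet]
    have e1 : ∫ z, O.indicator (fun z => w' z ^ 2) z =
        ∫ z, (fun y => (B.indicator fun y => w y ^ 2) ((p, p) + y)) (t • z) :=
      integral_congr_ae (ae_of_all _ hind)
    rw [e1, Measure.integral_comp_smul volume
      (fun y => (B.indicator fun y => w y ^ 2) ((p, p) + y)) t, integral_add_left_eq_self, hfr,
      smul_eq_mul]
    congr 1
    rw [abs_of_pos (by positivity), ht, inv_pow, inv_inv, mul_comm 2 n, pow_mul]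
  have hsq : √(∫ z in O, w' z ^ 2) = lam ^ n * √(∫ z in B, w z ^ 2) := by
    rw [hint, Real.sqrt_mul (by positivity), Real.sqrt_sq (by positivity)]
  -- the estimate
  have hsub : Metric.ball (0 : VV n) 1 ⊆ O := Metric.ball_subset_ball (by norm_num)
  have key := h (cc2 s₁ s₂ p t) (cc2_CO_loc hl0 h₁ h₂) w' hw's hw'i (t ^ 2 * M)
    (by positivity) hBF (D (bp n) (Sum.inl i) (D (bp n) (Sum.inr j) w'))
    (cd_D Metric.isOpen_ball (cd_D Metric.isOpen_ball (hw's.mono hsub) _) _)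
    ((Hs_D _ _ _).trans (Hs_D _ _ _))
  rw [d2 _ _ 0 (Metric.mem_ball_self (by norm_num)), smul_zero, add_zero, D_dy, D_dx, hsq,
    abs_mul, abs_of_pos (by positivity)] at key
  have e2 : |dx i (dy j w) (p, p)| = lam ^ 2 * (t ^ 2 * |dx i (dy j w) (p, p)|) := by
    rw [← mul_assoc, ← mul_pow, mul_comm lam t, htl]; ring
  rw [e2]
  calc lam ^ 2 * (t ^ 2 * |dx i (dy j w) (p, p)|)
      ≤ lam ^ 2 * (C * (lam ^ n * √(∫ z in B, w z ^ 2) + t ^ 2 * M)) :=
        mul_le_mul_of_nonneg_left key (by positivity)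
    _ = C * (lam ^ (n + 2) * √(∫ z in B, w z ^ 2) + (t * lam) ^ 2 * M) := by ring
    _ = _ := by rw [htl]; ring

end Vale.Agent.P088.R2.H960.S8
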