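import Vale.Agent.P088.R2.H960.S8a

/-!
# P088, stage 3: the estimate of the mixed derivatives on the diagonal (S8)
-/

open MeasureTheory Set Function
open scoped ContDiff ENNReal NNReal Matrix

noncomputable section

namespace Vale.Agent.P088.R2.H960.S8

open Vale.Agent.P088.LR Vale.Agent.P088.HY Vale.Agent.P088.HY.EI

variable {n : ℕ}

/-- The kernel of the exchange of the integrations has bounded mass. -/
theorem mass {A : Set (V n)} (hA : MeasurableSet A) {lam : V n → ℝ} (h0 : ∀ x, 0 < lam x)
    (hc : ∀ p ∈ A, ∀ x, dist x p < 2 / lam p → lam x ≤ 2 * lam p ∧ lam p ≤ 2 * lam x)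
    (z : VV n) :
    ∫⁻ p in A, (Metric.ball (p, p) (2 / lam p)).indicator (fun _ => ENNReal.ofReal (lam p ^ n)) z
      ≤ ENNReal.ofReal (16 ^ n) := by
  have h1 : ∀ p ∈ A, (Metric.ball (p, p) (2 / lam p)).indicator
      (fun _ => ENNReal.ofReal (lam p ^ n)) z ≤
      (Metric.ball z.1 (4 / lam z.1)).indicator
        (fun _ => ENNReal.ofReal ((2 * lam z.1) ^ n)) p := by
    intro p hp
    by_cases hz : z ∈ Metric.ball (p, p) (2 / lam p)
    · have hd : dist z.1 p < 2 / lam p := by
        have := Metric.mem_ball.1 hz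
        exact (le_max_left _ _).trans_lt this
      obtain ⟨c1, c2⟩ := hc p hp z.1 hd
      have hp' : p ∈ Metric.ball z.1 (4 / lam z.1) := by
        rw [Metric.mem_ball, dist_comm]
        refine hd.trans_le ?_
        rw [div_le_div_iff₀ (h0 p) (h0 z.1)]
        linarith
      rw [indicator_of_mem hz, indicator_of_mem hp']
      exact ENNReal.ofReal_le_ofReal (pow_le_pow_left₀ (h0 p).le c2 n)
    · rw [indicator_of_notMem hz]
      exact zero_le
  calc ∫⁻ p in A, (Metric.ball (p, p) (2 / lam p)).indicator
        (fun _ => ENNReal.ofReal (lam p ^ n)) z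
      ≤ ∫⁻ p in A, (Metric.ball z.1 (4 / lam z.1)).indicator
        (fun _ => ENNReal.ofReal ((2 * lam z.1) ^ n)) p := setLIntegral_mono' hA h1
    _ ≤ ∫⁻ p, (Metric.ball z.1 (4 / lam z.1)).indicator
        (fun _ => ENNReal.ofReal ((2 * lam z.1) ^ n)) p := setLIntegral_le_lintegral _ _
    _ = ENNReal.ofReal ((2 * lam z.1) ^ n) * volume (Metric.ball z.1 (4 / lam z.1)) := by
        rw [lintegral_indicator measurableSet_ball, setLIntegral_const]
    _ = ENNReal.ofReal (16 ^ n) := by
        have h4 : 0 < 4 / lam z.1 := div_pos (by norm_num) (h0 _)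
        rw [Real.volume_pi_ball _ h4, ← ENNReal.ofReal_mul (pow_nonneg (by
          have := h0 z.1; positivity) n)]
        congr 1
        rw [Fintype.card_fin, ← mul_pow]
        congr 1
        have := (h0 z.1).ne'
        field_simp
        norm_num

/-- The exchange of the integrations. -/
theorem swap {A : Set (V n)} (hA : MeasurableSet A) {lam : V n → ℝ} (hl : Continuous lam)
    (h0 : ∀ x, 0 < lam x)
    (hc : ∀ p ∈ A, ∀ x, dist x p < 2 / lam p → lam x ≤ 2 * lam p ∧ lam p ≤ 2 * lam x)
    {G : VV n → ℝ≥0∞} (hG : Measurable G) :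
    ∫⁻ p in A, ENNReal.ofReal (lam p ^ n) * ∫⁻ z in Metric.ball (p, p) (2 / lam p), G z ≤
      ENNReal.ofReal (16 ^ n) * ∫⁻ z, G z := by
  have hS : MeasurableSet {q : V n × VV n | dist q.2 (q.1, q.1) < 2 / lam q.1} := by
    apply IsOpen.measurableSet
    apply isOpen_lt
    · fun_prop
    · exact continuous_const.div (hl.comp continuous_fst) fun q => (h0 q.1).ne'
  have hm : Measurable fun q : V n × VV n =>
      {q : V n × VV n | dist q.2 (q.1, q.1) < 2 / lam q.1}.indicator
        (fun q => ENNReal.ofReal (lam q.1 ^ n) * G q.2) q := by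
    refine Measurable.indicator ?_ hS
    exact (((hl.comp continuous_fst).pow n).measurable.ennreal_ofReal).mul
      (hG.comp measurable_snd)
  have e1 : ∀ p, ENNReal.ofReal (lam p ^ n) * ∫⁻ z in Metric.ball (p, p) (2 / lam p), G z =
      ∫⁻ z, {q : V n × VV n | dist q.2 (q.1, q.1) < 2 / lam q.1}.indicator
        (fun q => ENNReal.ofReal (lam q.1 ^ n) * G q.2) (p, z) := by
    intro p
    rw [← lintegral_const_mul _ hG, ← lintegral_indicator measurableSet_ball]
    refine lintegral_congr fun z => ?_
    by_cases hz : z ∈ Metric.ball (p, p) (2 / lam p)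
    · rw [indicator_of_mem hz, indicator_of_mem]
      exact hz
    · rw [indicator_of_notMem hz, indicator_of_notMem]
      exact hz
  calc ∫⁻ p in A, ENNReal.ofReal (lam p ^ n) * ∫⁻ z in Metric.ball (p, p) (2 / lam p), G z
      = ∫⁻ p in A, ∫⁻ z, {q : V n × VV n | dist q.2 (q.1, q.1) < 2 / lam q.1}.indicator
        (fun q => ENNReal.ofReal (lam q.1 ^ n) * G q.2) (p, z) := by
        refine lintegral_congr fun p => e1 p
    _ = ∫⁻ z, ∫⁻ p in A, {q : V n × VV n | dist q.2 (q.1, q.1) < 2 / lam q.1}.indicator
        (fun q => ENNReal.ofReal (lam q.1 ^ n) * G q.2) (p, z) :=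
        lintegral_lintegral_swap hm.aemeasurable
    _ ≤ ∫⁻ z, ENNReal.ofReal (16 ^ n) * G z := by
        refine lintegral_mono fun z => ?_
        refine le_trans (le_of_eq ?_) (mul_le_mul_left (mass hA h0 hc z) (G z))
        rw [← lintegral_mul_const]
        · refine lintegral_congr fun p => ?_
          by_cases hz : z ∈ Metric.ball (p, p) (2 / lam p)
          · rw [indicator_of_mem (a := z) hz, indicator_of_mem]
            exact hz
          · rw [indicator_of_notMem (a := z) hz, indicator_of_notMem, zero_mul]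
            exact hz
        · have h2 : Measurable fun p : V n =>
              {q : V n × VV n | dist q.2 (q.1, q.1) < 2 / lam q.1}.indicator
                (fun q => ENNReal.ofReal (lam q.1 ^ n)) (p, z) :=
            (Measurable.indicator
              (((hl.comp continuous_fst).pow n).measurable.ennreal_ofReal) hS).comp
              (measurable_id.prodMk measurable_const)
          exact h2
    _ = ENNReal.ofReal (16 ^ n) * ∫⁻ z, G z := lintegral_const_mul _ hG

end Vale.Agent.P088.R2.H960.S8
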